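import Vale.Agent.P170.Window

/-!
Interpolation inequality and first moment bound for the model with replacement.
-/

namespace Vale.Agent.P170

open Finset
open scoped BigOperators

variable {V V₁ V₂ : Type*}

/-- Literals on a set of variables mapped into a bigger set of variables. -/
def litMap (e : V₁ → V) (l : V₁ × Bool) : Set (V → Bool) := lit (e l.1, l.2)

theorem pr_le_of_equiv [Fintype V₁] [Fintype V] (e : V₁ ≃ V) (k m : ℕ) :
    pr V₁ k m ≤ pr V k m := by
  classical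
  have h : op (cl (lit (V := V)) k) = op (cl (litMap e) k) := by
    apply LinearMap.ext
    intro f
    funext S
    rw [op_apply, op_apply, eq_comm]
    exact Fintype.expect_equiv (Equiv.piCongrRight fun _ => e.prodCongr (Equiv.refl Bool)) _ _
      fun C => rfl
  rw [pr, pr, h]
  refine simulation _ _ (fun S S' => ∀ σ ∈ S, σ ∘ e.symm ∈ S') ?_ alive alive ?_ m _ _ ?_
  · rintro S S' C h σ ⟨h1, h2⟩
    refine ⟨h σ h1, ?_⟩
    obtain ⟨i, hi⟩ := Set.mem_iUnion.1 h2
    refine Set.mem_iUnion.2 ⟨i, ?_⟩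
    simpa [litMap, lit] using hi
  · intro S S' h
    rcases S.eq_empty_or_nonempty with rfl | ⟨σ, hσ⟩
    · rw [alive_empty]; exact alive_nonneg _
    · rw [alive_of_nonempty ⟨σ, hσ⟩, alive_of_nonempty ⟨_, h σ hσ⟩]
  · intro σ _
    trivial

theorem pr_mul_le [Fintype V₁] [Fintype V₂] (k a b : ℕ) :
    pr V₁ k a * pr V₂ k b
      ≤ (op (cl (litMap (Sum.inl : V₁ → V₁ ⊕ V₂)) k) ^ a
          * op (cl (litMap (Sum.inr : V₂ → V₁ ⊕ V₂)) k) ^ b) alive Set.univ := by
  rw [Module.End.mul_apply, op_pow_apply, pr, pr, op_pow_apply, op_pow_apply, expect_mul_expect]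
  refine expect_le_expect fun F _ => ?_
  rw [op_pow_apply]
  refine expect_le_expect fun G _ => ?_
  rcases (Set.univ ∩ ⋂ i, cl lit k (F i)).eq_empty_or_nonempty with h | ⟨σ, -, hσ⟩
  · rw [h, alive_empty, zero_mul]; exact alive_nonneg _
  rcases (Set.univ ∩ ⋂ i, cl lit k (G i)).eq_empty_or_nonempty with h | ⟨τ, -, hτ⟩
  · rw [h, alive_empty, mul_zero]; exact alive_nonneg _
  have : (Set.univ ∩ (⋂ i, cl (litMap (Sum.inl : V₁ → V₁ ⊕ V₂)) k (F i))
      ∩ ⋂ i, cl (litMap (Sum.inr : V₂ → V₁ ⊕ V₂)) k (G i)).Nonempty := by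
    refine ⟨Sum.elim σ τ, ⟨trivial, ?_⟩, ?_⟩
    · refine Set.mem_iInter.2 fun i => ?_
      obtain ⟨j, hj⟩ := Set.mem_iUnion.1 (Set.mem_iInter.1 hσ i)
      exact Set.mem_iUnion.2 ⟨j, hj⟩
    · refine Set.mem_iInter.2 fun i => ?_
      obtain ⟨j, hj⟩ := Set.mem_iUnion.1 (Set.mem_iInter.1 hτ i)
      exact Set.mem_iUnion.2 ⟨j, hj⟩
  rw [alive_of_nonempty this]
  exact mul_le_one₀ (alive_le_one _) (alive_nonneg _) (alive_le_one _)

theorem bb_sum [Fintype V₁] [Fintype V₂] [Nonempty V₁] [Nonempty V₂] (S : Set (V₁ ⊕ V₂ → Bool)) :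
    bb lit S = (Fintype.card V₁ / (Fintype.card V₁ + Fintype.card V₂) : ℝ)
        * bb (litMap (Sum.inl : V₁ → V₁ ⊕ V₂)) S
      + (Fintype.card V₂ / (Fintype.card V₁ + Fintype.card V₂) : ℝ)
        * bb (litMap (Sum.inr : V₂ → V₁ ⊕ V₂)) S := by
  have h1 : (0 : ℝ) < Fintype.card V₁ := by exact_mod_cast Fintype.card_pos
  have h2 : (0 : ℝ) < Fintype.card V₂ := by exact_mod_cast Fintype.card_pos
  simp only [bb, expect_eq_sum_div_card, card_univ, Fintype.card_prod, Fintype.card_sum,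
    Fintype.card_bool, Fintype.sum_prod_type, Fintype.sum_sum_type, litMap]
  push_cast
  field_simp

theorem pow_le_of_commute {Ω : Type*} {P Q : Module.End ℝ (Set Ω → ℝ)} (hP : Pos P) (hQ : Pos Q)
    (h : Commute P Q) (f : Set Ω → ℝ) (hf : Q f ≤ P f) (m : ℕ) : (Q ^ m) f ≤ (P ^ m) f := by
  induction m with
  | zero => simp
  | succ m ih =>
    calc (Q ^ (m + 1)) f = Q ((Q ^ m) f) := by rw [pow_succ', Module.End.mul_apply]
      _ ≤ Q ((P ^ m) f) := hQ _ _ ih
      _ = (P ^ m) (Q f) := by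
        rw [← Module.End.mul_apply, ← (h.pow_left m).eq, Module.End.mul_apply]
      _ ≤ (P ^ m) (P f) := hP.pow m _ _ hf
      _ = (P ^ (m + 1)) f := by rw [pow_succ, Module.End.mul_apply]

theorem interp_sum [Fintype V₁] [Fintype V₂] [Nonempty V₁] [Nonempty V₂] (k m : ℕ) :
    ∑ j ∈ range (m + 1), (m.choose j : ℝ)
        * (Fintype.card V₁ / (Fintype.card V₁ + Fintype.card V₂) : ℝ) ^ j
        * (Fintype.card V₂ / (Fintype.card V₁ + Fintype.card V₂) : ℝ) ^ (m - j)
        * (pr V₁ k j * pr V₂ k (m - j))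
      ≤ pr (V₁ ⊕ V₂) k m := by
  have h1 : (0 : ℝ) < Fintype.card V₁ := by exact_mod_cast Fintype.card_pos
  have h2 : (0 : ℝ) < Fintype.card V₂ := by exact_mod_cast Fintype.card_pos
  set a : ℝ := Fintype.card V₁ / (Fintype.card V₁ + Fintype.card V₂) with ha
  set b : ℝ := Fintype.card V₂ / (Fintype.card V₁ + Fintype.card V₂) with hb
  have ha0 : 0 ≤ a := by positivity
  have hb0 : 0 ≤ b := by positivity
  have hab : a + b = 1 := by rw [ha, hb]; field_simp
  set P₁ := op (cl (litMap (Sum.inl : V₁ → V₁ ⊕ V₂)) k) with hP₁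
  set P₂ := op (cl (litMap (Sum.inr : V₂ → V₁ ⊕ V₂)) k) with hP₂
  set P := op (cl (lit (V := V₁ ⊕ V₂)) k) with hP
  have hc : Commute P (a • P₁ + b • P₂) :=
    ((op_commute _ _).smul_right a).add_right ((op_commute _ _).smul_right b)
  have hc' : Commute (a • P₁) (b • P₂) := ((op_commute _ _).smul_right b).smul_left a
  have hQ : Pos (a • P₁ + b • P₂) := ((op_pos _).smul ha0).add ((op_pos _).smul hb0)
  have hf : (a • P₁ + b • P₂) alive ≤ P alive := by
    intro S
    simp only [LinearMap.add_apply, LinearMap.smul_apply, Pi.add_apply, Pi.smul_apply, smul_eq_mul,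
      hP₁, hP₂, hP, op_cl_alive']
    have := (convexOn_pow (𝕜 := ℝ) k).2 (bb_nonneg (litMap (Sum.inl : V₁ → V₁ ⊕ V₂)) S)
      (bb_nonneg (litMap (Sum.inr : V₂ → V₁ ⊕ V₂)) S) ha0 hb0 hab
    simp only [smul_eq_mul] at this
    rw [bb_sum, ← ha, ← hb]
    linarith
  have h3 := pow_le_of_commute (op_pos _) hQ hc alive hf m Set.univ
  refine le_trans ?_ h3
  rw [hc'.add_pow, LinearMap.sum_apply, Finset.sum_apply]
  refine sum_le_sum fun j _ => ?_
  have h4 := pr_mul_le (V₁ := V₁) (V₂ := V₂) k j (m - j)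
  rw [← hP₁, ← hP₂] at h4
  rw [_root_.smul_pow, _root_.smul_pow, smul_mul_smul_comm, smul_mul_assoc, LinearMap.smul_apply,
    Pi.smul_apply, Module.End.mul_apply, Module.End.natCast_apply, map_nsmul, Pi.smul_apply,
    smul_eq_mul, nsmul_eq_mul]
  calc _ ≤ (m.choose j : ℝ) * a ^ j * b ^ (m - j) * (P₁ ^ j * P₂ ^ (m - j)) alive Set.univ :=
        mul_le_mul_of_nonneg_left h4 (by positivity)
    _ = _ := by ring

theorem interp (k n₁ n₂ m : ℕ) (h₁ : 0 < n₁) (h₂ : 0 < n₂) :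
    ∑ j ∈ range (m + 1), (m.choose j : ℝ) * (n₁ / (n₁ + n₂) : ℝ) ^ j
        * (n₂ / (n₁ + n₂) : ℝ) ^ (m - j) * (pr (Fin n₁) k j * pr (Fin n₂) k (m - j))
      ≤ pr (Fin (n₁ + n₂)) k m := by
  have : Nonempty (Fin n₁) := ⟨⟨0, h₁⟩⟩
  have : Nonempty (Fin n₂) := ⟨⟨0, h₂⟩⟩
  have := interp_sum (V₁ := Fin n₁) (V₂ := Fin n₂) k m
  simp only [Fintype.card_fin] at this
  exact this.trans (pr_le_of_equiv finSumFinEquiv k m)

theorem pr_zero [Fintype V] (k : ℕ) : pr V k 0 = 1 := by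
  simp [pr, alive_of_nonempty]

theorem bb_singleton [Fintype V] [Nonempty V] (σ : V → Bool) : bb lit {σ} = 1 / 2 := by
  rw [bb, ← univ_product_univ, expect_product]
  have : ∀ v : V, 𝔼 b : Bool, (1 - alive ({σ} ∩ lit (v, b))) = 1 / 2 := by
    intro v
    have h1 : alive ({σ} ∩ lit (v, σ v)) = 1 := alive_of_nonempty ⟨σ, rfl, rfl⟩
    have h2 : alive ({σ} ∩ lit (v, !σ v)) = 0 := by
      have : {σ} ∩ lit (v, !σ v) = ∅ := by
        ext τ
        simp only [lit, Set.mem_inter_iff, Set.mem_singleton_iff, Set.mem_ofPred_eq,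
          Set.mem_empty_iff_false, iff_false, not_and]
        rintro rfl
        simp
      rw [this, alive_empty]
    rw [expect_eq_sum_div_card, Fintype.sum_bool]
    cases h : σ v
    · simp only [h, Bool.not_false] at h1 h2
      simp [h1, h2]
    · simp only [h, Bool.not_true] at h1 h2
      simp [h1, h2]
  simp only [this]
  exact Fintype.expect_const _

theorem first_moment [Fintype V] [Nonempty V] (k m : ℕ) :
    pr V k m ≤ 2 ^ Fintype.card V * (1 - (1 / 2) ^ k) ^ m := by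
  classical
  set P := op (cl (lit (V := V)) k) with hP
  have h1 : ∀ σ : V → Bool, P (fun S => alive ({σ} ∩ S))
      = (1 - (1 / 2) ^ k : ℝ) • fun S => alive ({σ} ∩ S) := by
    intro σ
    funext S
    have := op_cl_alive (lit (V := V)) k ({σ} ∩ S)
    rw [op_apply] at this
    simp only [hP, op_apply, Pi.smul_apply, smul_eq_mul, ← Set.inter_assoc]
    by_cases h : σ ∈ S
    · rw [Set.singleton_inter_of_mem h] at this ⊢
      rw [bb_singleton] at this
      linarith
    · rw [Set.singleton_inter_of_notMem h] at this ⊢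
      rw [alive_empty] at this ⊢
      linarith
  have h2 : ∀ (σ : V → Bool) (t : ℕ), (P ^ t) (fun S => alive ({σ} ∩ S))
      = (1 - (1 / 2) ^ k : ℝ) ^ t • fun S => alive ({σ} ∩ S) := by
    intro σ t
    induction t with
    | zero => simp
    | succ t ih => rw [pow_succ, Module.End.mul_apply, h1, map_smul, ih, smul_smul, pow_succ']
  have h3 : alive ≤ ∑ σ : V → Bool, fun S => alive ({σ} ∩ S) := by
    intro S
    rw [Finset.sum_apply]
    rcases S.eq_empty_or_nonempty with rfl | ⟨σ, hσ⟩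
    · rw [alive_empty]; exact sum_nonneg fun _ _ => alive_nonneg _
    · rw [alive_of_nonempty ⟨σ, hσ⟩]
      refine le_trans ?_ (single_le_sum (f := fun σ => alive ({σ} ∩ S))
        (fun _ _ => alive_nonneg _) (mem_univ σ))
      exact (alive_of_nonempty (S := {σ} ∩ S) ⟨σ, rfl, hσ⟩).ge
  have h4 := (op_pos (cl (lit (V := V)) k)).pow m _ _ h3 Set.univ
  rw [map_sum, Finset.sum_apply] at h4
  refine h4.trans (le_of_eq ?_)
  simp only [← hP, h2, Pi.smul_apply, smul_eq_mul, Set.inter_univ,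
    alive_of_nonempty (Set.singleton_nonempty _), mul_one]
  simp

end Vale.Agent.P170
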