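import Mathlib

/-!
From a polynomial scaling window and the interpolation inequality to a limiting threshold.
-/

namespace Vale.Agent.P170

open Finset Filter Topology
open scoped BigOperators

/-- Sixth root of a natural number. -/
noncomputable def rt (n : ℕ) : ℝ := (n : ℝ) ^ (((6 : ℕ) : ℝ)⁻¹)

theorem rt_pow (n : ℕ) : rt n ^ 6 = n :=
  Real.rpow_inv_natCast_pow (Nat.cast_nonneg n) (by norm_num)

theorem rt_nonneg (n : ℕ) : 0 ≤ rt n := Real.rpow_nonneg (Nat.cast_nonneg n) _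

theorem one_le_rt {n : ℕ} (h : 0 < n) : 1 ≤ rt n :=
  Real.one_le_rpow (by exact_mod_cast h) (by positivity)

theorem rt_mono {n m : ℕ} (h : n ≤ m) : rt n ≤ rt m :=
  Real.rpow_le_rpow (Nat.cast_nonneg n) (by exact_mod_cast h) (by positivity)

theorem rt_tendsto : Tendsto rt atTop atTop :=
  (tendsto_rpow_atTop (by positivity)).comp tendsto_natCast_atTop_atTop

theorem rt_ratio {n m : ℕ} (h : 3 * n ≤ 2 * m) : 16 * rt n ≤ 15 * rt m := by
  have h' : (3 : ℝ) * n ≤ 2 * m := by exact_mod_cast h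
  have hn : (0 : ℝ) ≤ n := Nat.cast_nonneg n
  have := rt_nonneg m
  refine le_of_pow_le_pow_left₀ (n := 6) (by norm_num) (by positivity) ?_
  rw [mul_pow, mul_pow, rt_pow, rt_pow]
  nlinarith

theorem binom_sum (m : ℕ) (a b : ℝ) (hab : a + b = 1) :
    ∑ j ∈ range (m + 1), (m.choose j : ℝ) * a ^ j * b ^ (m - j) = 1 := by
  have := add_pow a b m
  rw [hab, one_pow] at this
  rw [this]
  exact sum_congr rfl fun j _ => by ring

theorem binom_var (m : ℕ) (a b : ℝ) (hab : a + b = 1) :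
    ∑ j ∈ range (m + 1), (m.choose j : ℝ) * a ^ j * b ^ (m - j) * (m * a - j) ^ 2 = m * a * b := by
  have := congrArg (Polynomial.eval a) (bernsteinPolynomial.variance ℝ m)
  have hb : b = 1 - a := by linarith
  simp only [Polynomial.eval_finsetSum, bernsteinPolynomial, nsmul_eq_mul, Polynomial.eval_mul,
    Polynomial.eval_pow, Polynomial.eval_sub, Polynomial.eval_natCast, Polynomial.eval_X,
    Polynomial.eval_one] at this
  rw [hb, ← this]
  exact sum_congr rfl fun j _ => by ring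

/-- The abstract properties of the satisfiability probability that the limit argument uses. -/
structure Hyp (p : ℕ → ℕ → ℝ) : Prop where
  nonneg : ∀ n m, 0 ≤ p n m
  le_one : ∀ n m, 0 < n → p n m ≤ 1
  zero : ∀ n, p n 0 = 1
  window : ∀ K : ℝ, 0 < K → ∃ C : ℝ, 0 < C ∧ ∀ n m₁ m₂ : ℕ, 0 < n → m₁ ≤ m₂ → (m₂ : ℝ) ≤ K * n →
    p n m₂ * (1 - p n m₁) * ((m₂ : ℝ) - m₁ + 1) ^ 2 ≤ C * (m₂ : ℝ) ^ 2 / rt n ^ 2
  small : ∃ C : ℝ, 0 < C ∧ ∀ n m : ℕ, 0 < n → m ≤ n → 1 - p n m ≤ C * m / rt n ^ 4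
  interp : ∀ n₁ n₂ m : ℕ, 0 < n₁ → 0 < n₂ →
    ∑ j ∈ range (m + 1), (m.choose j : ℝ) * (n₁ / (n₁ + n₂) : ℝ) ^ j
        * (n₂ / (n₁ + n₂) : ℝ) ^ (m - j) * (p n₁ j * p n₂ (m - j)) ≤ p (n₁ + n₂) m
  first : ∃ K : ℝ, 0 < K ∧ ∀ᶠ n : ℕ in atTop, p n ⌊K * n⌋₊ < 1 / 2

/-- Up to density `c` the probability is at least one half. -/
def Good (p : ℕ → ℕ → ℝ) (n : ℕ) (c : ℝ) : Prop := ∀ m : ℕ, (m : ℝ) ≤ c * n → 1 / 2 ≤ p n m

theorem Good.mono {p : ℕ → ℕ → ℝ} {n : ℕ} {c c' : ℝ} (h : Good p n c) (hc : c' ≤ c) :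
    Good p n c' :=
  fun m hm => h m (hm.trans (mul_le_mul_of_nonneg_right hc (Nat.cast_nonneg n)))

variable {p : ℕ → ℕ → ℝ}

theorem Hyp.split (H : Hyp p) {n₁ n₂ : ℕ} (h₁ : 0 < n₁) (h₂ : 0 < n₂) (hb₁ : n₁ + n₂ ≤ 3 * n₁)
    (hb₂ : n₁ + n₂ ≤ 3 * n₂) {c s : ℝ} (hs : 0 < s) (G₁ : Good p n₁ c) (G₂ : Good p n₂ c) (m : ℕ)
    (hm : (m : ℝ) ≤ c * (n₁ + n₂) - s) (hms : 9 * (m : ℝ) ≤ s ^ 2) : 1 / 8 ≤ p (n₁ + n₂) m := by
  have p₁ : (0 : ℝ) < n₁ := by exact_mod_cast h₁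
  have p₂ : (0 : ℝ) < n₂ := by exact_mod_cast h₂
  have q₁ : (n₁ : ℝ) + n₂ ≤ 3 * n₁ := by exact_mod_cast hb₁
  have q₂ : (n₁ : ℝ) + n₂ ≤ 3 * n₂ := by exact_mod_cast hb₂
  refine le_trans ?_ (H.interp n₁ n₂ m h₁ h₂)
  set a : ℝ := n₁ / (n₁ + n₂) with ha
  set b : ℝ := n₂ / (n₁ + n₂) with hb
  have hab : a + b = 1 := by rw [ha, hb]; field_simp
  have ha3 : 1 / 3 ≤ a := by rw [ha, div_le_div_iff₀ (by norm_num) (by positivity)]; linarith
  have hb3 : 1 / 3 ≤ b := by rw [hb, div_le_div_iff₀ (by norm_num) (by positivity)]; linarith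
  have ea : (n₁ + n₂) * a = n₁ := by rw [ha]; field_simp
  have eb : (n₁ + n₂) * b = n₂ := by rw [hb]; field_simp
  have key : ∀ j ∈ range (m + 1),
      (m.choose j : ℝ) * a ^ j * b ^ (m - j) * (1 / 4 - 9 / (4 * s ^ 2) * (m * a - j) ^ 2)
        ≤ (m.choose j : ℝ) * a ^ j * b ^ (m - j) * (p n₁ j * p n₂ (m - j)) := by
    intro j hj
    have hj' : j ≤ m := Nat.lt_succ_iff.1 (mem_range.1 hj)
    refine mul_le_mul_of_nonneg_left ?_ (by positivity)
    have hpp : 0 ≤ p n₁ j * p n₂ (m - j) := mul_nonneg (H.nonneg _ _) (H.nonneg _ _)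
    rcases le_total |(m : ℝ) * a - j| (s / 3) with h | h
    · obtain ⟨h3, h4⟩ := abs_le.1 h
      have ma : (m : ℝ) * a ≤ c * n₁ - s * a := by
        calc (m : ℝ) * a ≤ (c * (n₁ + n₂) - s) * a := by gcongr
          _ = c * ((n₁ + n₂) * a) - s * a := by ring
          _ = _ := by rw [ea]
      have mb : (m : ℝ) * b ≤ c * n₂ - s * b := by
        calc (m : ℝ) * b ≤ (c * (n₁ + n₂) - s) * b := by gcongr
          _ = c * ((n₁ + n₂) * b) - s * b := by ring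
          _ = _ := by rw [eb]
      have sa : s / 3 ≤ s * a := by nlinarith
      have sb : s / 3 ≤ s * b := by nlinarith
      have g1 := G₁ j (by linarith)
      have hmab : (m : ℝ) * a + m * b = m := by rw [← mul_add, hab, mul_one]
      have g2 := G₂ (m - j) (by rw [Nat.cast_sub hj']; linarith)
      have : 0 ≤ 9 / (4 * s ^ 2) * ((m : ℝ) * a - j) ^ 2 := by positivity
      nlinarith
    · have h2 : (s / 3) ^ 2 ≤ ((m : ℝ) * a - j) ^ 2 := by
        rw [← sq_abs ((m : ℝ) * a - j)]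
        gcongr
      have h3 : 9 / (4 * s ^ 2) * (s / 3) ^ 2 ≤ 9 / (4 * s ^ 2) * ((m : ℝ) * a - j) ^ 2 := by
        gcongr
      have h4 : 9 / (4 * s ^ 2) * (s / 3) ^ 2 = 1 / 4 := by field_simp; ring
      linarith
  refine le_trans ?_ (sum_le_sum key)
  have e : ∑ j ∈ range (m + 1),
      (m.choose j : ℝ) * a ^ j * b ^ (m - j) * (1 / 4 - 9 / (4 * s ^ 2) * (m * a - j) ^ 2)
      = 1 / 4 * (∑ j ∈ range (m + 1), (m.choose j : ℝ) * a ^ j * b ^ (m - j))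
        - 9 / (4 * s ^ 2)
          * ∑ j ∈ range (m + 1), (m.choose j : ℝ) * a ^ j * b ^ (m - j) * (m * a - j) ^ 2 := by
    rw [mul_sum, mul_sum, ← sum_sub_distrib]
    exact sum_congr rfl fun j _ => by ring
  rw [e, binom_sum m a b hab, binom_var m a b hab]
  have hab4 : a * b ≤ 1 / 4 := by nlinarith [sq_nonneg (a - b)]
  have h5 : (m : ℝ) * a * b ≤ s ^ 2 / 36 := by
    have : (m : ℝ) * (a * b) ≤ m * (1 / 4) := by gcongr
    linarith [mul_assoc (m : ℝ) a b]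
  have h6 : 9 / (4 * s ^ 2) * ((m : ℝ) * a * b) ≤ 9 / (4 * s ^ 2) * (s ^ 2 / 36) := by gcongr
  have h7 : 9 / (4 * s ^ 2) * (s ^ 2 / 36) = 1 / 16 := by field_simp; ring
  linarith

theorem Hyp.step (H : Hyp p) (K : ℝ) (hK : 0 < K) : ∃ D : ℝ, 0 < D ∧ ∀ (n₁ n₂ : ℕ) (c : ℝ),
    0 < n₁ → 0 < n₂ → n₁ + n₂ ≤ 3 * n₁ → n₁ + n₂ ≤ 3 * n₂ → 1 / rt (n₁ + n₂) ^ 4 ≤ c → c ≤ K →
    Good p n₁ c → Good p n₂ c → Good p (n₁ + n₂) (c * (1 - D / rt (n₁ + n₂))) := by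
  obtain ⟨C, hC, hw⟩ := H.window K hK
  refine ⟨3 + (16 * C + 1), by positivity, ?_⟩
  intro n₁ n₂ c h₁ h₂ hb₁ hb₂ hc hcK G₁ G₂ m' hm'
  have hN : 0 < n₁ + n₂ := by omega
  set y := rt (n₁ + n₂) with hy
  have y1 : 1 ≤ y := one_le_rt hN
  have y0 : 0 < y := by linarith
  have y6 : y ^ 6 = (n₁ : ℝ) + n₂ := by rw [hy, rt_pow]; push_cast; ring
  have c0 : 0 < c := lt_of_lt_of_le (by positivity) hc
  set X : ℝ := c * (n₁ + n₂) with hX
  have hXy : y ^ 2 ≤ X := by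
    rw [hX, ← y6]
    rw [div_le_iff₀ (by positivity)] at hc
    nlinarith [pow_pos y0 2]
  have X0 : 0 < X := lt_of_lt_of_le (by positivity) hXy
  set z : ℝ := X / y with hz
  have z0 : 0 < z := by positivity
  have hz2 : X ≤ z ^ 2 := by
    rw [hz, div_pow, le_div_iff₀ (by positivity)]
    nlinarith
  have hm'' : (m' : ℝ) ≤ X - (3 + (16 * C + 1)) * z := by
    refine hm'.trans (le_of_eq ?_)
    rw [hz, hX]
    push_cast
    ring
  have m0 : (0 : ℝ) ≤ m' := Nat.cast_nonneg m'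
  have hCz : 0 < (16 * C + 1) * z := by positivity
  set m := ⌊X - 3 * z⌋₊ with hm
  have hm1 : (m : ℝ) ≤ X - 3 * z := Nat.floor_le (by linarith)
  have hm2 : X - 3 * z < m + 1 := Nat.lt_floor_add_one _
  have hm3 : m' ≤ m := Nat.le_floor (by linarith)
  have h8 := H.split h₁ h₂ hb₁ hb₂ (s := 3 * z) (by positivity) G₁ G₂ m hm1 (by nlinarith)
  have hmK : (m : ℝ) ≤ K * ((n₁ + n₂ : ℕ) : ℝ) := by
    have : X ≤ K * (n₁ + n₂) := by rw [hX]; gcongr
    push_cast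
    linarith
  have w := hw (n₁ + n₂) m' m hN hm3 hmK
  rw [← hy] at w
  have w2 : C * (m : ℝ) ^ 2 / y ^ 2 ≤ C * z ^ 2 := by
    rw [hz, div_pow, mul_div_assoc]
    gcongr
    linarith
  have l1 : 0 ≤ 1 - p (n₁ + n₂) m' := sub_nonneg.2 (H.le_one _ _ hN)
  have w3 : 1 / 8 * (1 - p (n₁ + n₂) m') * ((16 * C + 1) * z) ^ 2
      ≤ p (n₁ + n₂) m * (1 - p (n₁ + n₂) m') * ((m : ℝ) - m' + 1) ^ 2 := by
    gcongr
    linarith
  have w4 : 1 / 8 * (1 - p (n₁ + n₂) m') * (16 * C + 1) ^ 2 ≤ C := by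
    have : (1 / 8 * (1 - p (n₁ + n₂) m') * (16 * C + 1) ^ 2) * z ^ 2 ≤ C * z ^ 2 := by
      calc _ = 1 / 8 * (1 - p (n₁ + n₂) m') * ((16 * C + 1) * z) ^ 2 := by ring
        _ ≤ _ := w3.trans (w.trans w2)
    exact le_of_mul_le_mul_right this (by positivity)
  by_contra hcon
  push Not at hcon
  have : 1 / 8 * (1 / 2) * (16 * C + 1) ^ 2 ≤ 1 / 8 * (1 - p (n₁ + n₂) m') * (16 * C + 1) ^ 2 := by
    gcongr
    linarith
  nlinarith

theorem Hyp.multiples (H : Hyp p) (K : ℝ) (hK : 0 < K) : ∃ D : ℝ, 0 < D ∧ ∀ (n₀ : ℕ) (c₀ : ℝ),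
    0 < n₀ → D / rt n₀ ≤ 1 / 2 → 2 / rt n₀ ^ 4 ≤ c₀ → c₀ ≤ K → Good p n₀ c₀ →
    ∀ a : ℕ, 0 < a → Good p (a * n₀) (c₀ * (1 - D / rt n₀)) := by
  obtain ⟨D, hD, hs⟩ := H.step K hK
  refine ⟨15 * D, by positivity, ?_⟩
  intro n₀ c₀ h₀ hφ hc hcK G
  have y1 : 1 ≤ rt n₀ := one_le_rt h₀
  have c0 : 0 < c₀ := lt_of_lt_of_le (by positivity) hc
  have main : ∀ a : ℕ, 0 < a →
      Good p (a * n₀) (c₀ * (1 - 15 * D / rt n₀ + 15 * D / rt (a * n₀))) := by
    intro a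
    induction a using Nat.strong_induction_on with
    | _ a ih =>
      intro ha
      rcases Nat.lt_or_ge a 2 with h | h
      · obtain rfl : a = 1 := by omega
        simpa using G
      · have e : a * n₀ = a / 2 * n₀ + (a - a / 2) * n₀ := by
          rw [← add_mul]; congr 1; omega
        have a1 : 0 < a / 2 := by omega
        have a2 : 0 < a - a / 2 := by omega
        have n1 : 0 < a / 2 * n₀ := Nat.mul_pos a1 h₀
        have n2 : 0 < (a - a / 2) * n₀ := Nat.mul_pos a2 h₀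
        have g1 := ih (a / 2) (by omega) a1
        have g2 := ih (a - a / 2) (by omega) a2
        have r1 : 16 * rt (a / 2 * n₀) ≤ 15 * rt (a * n₀) := by
          apply rt_ratio
          rw [← mul_assoc, ← mul_assoc]
          exact Nat.mul_le_mul_right _ (by omega)
        have r2 : 16 * rt ((a - a / 2) * n₀) ≤ 15 * rt (a * n₀) := by
          apply rt_ratio
          rw [← mul_assoc, ← mul_assoc]
          exact Nat.mul_le_mul_right _ (by omega)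
        have t1 : rt n₀ ≤ rt (a / 2 * n₀) := rt_mono (Nat.le_mul_of_pos_left _ a1)
        have t2 : rt n₀ ≤ rt ((a - a / 2) * n₀) := rt_mono (Nat.le_mul_of_pos_left _ a2)
        have t3 : rt n₀ ≤ rt (a * n₀) := rt_mono (Nat.le_mul_of_pos_left _ ha)
        set y := rt (a * n₀) with hy
        have y0 : 0 < y := by linarith
        have u1 : 16 * D / y ≤ 15 * D / rt (a / 2 * n₀) := by
          rw [div_le_div_iff₀ y0 (by linarith)]; nlinarith
        have u2 : 16 * D / y ≤ 15 * D / rt ((a - a / 2) * n₀) := by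
          rw [div_le_div_iff₀ y0 (by linarith)]; nlinarith
        have u3 : 15 * D / rt (a / 2 * n₀) ≤ 15 * D / rt n₀ := by gcongr
        have u4 : 0 < 16 * D / y := by positivity
        set c := c₀ * (1 - 15 * D / rt n₀ + 16 * D / y) with hcdef
        have cle : c ≤ c₀ := by
          rw [hcdef]
          exact mul_le_of_le_one_right c0.le (by linarith)
        have cge : c₀ / 2 ≤ c := by
          rw [hcdef]
          nlinarith
        have hc4 : 1 / y ^ 4 ≤ c := by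
          have : 1 / y ^ 4 ≤ 1 / rt n₀ ^ 4 := by gcongr
          have e2 : 2 / rt n₀ ^ 4 = 2 * (1 / rt n₀ ^ 4) := by ring
          linarith
        have := hs (a / 2 * n₀) ((a - a / 2) * n₀) c n1 n2
          (by rw [← e, ← mul_assoc]; exact Nat.mul_le_mul_right _ (by omega))
          (by rw [← e, ← mul_assoc]; exact Nat.mul_le_mul_right _ (by omega))
          (by rw [← e]; exact hc4) (cle.trans hcK)
          (g1.mono (by rw [hcdef]; gcongr)) (g2.mono (by rw [hcdef]; gcongr))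
        rw [← e, ← hy] at this
        refine this.mono ?_
        have u5 : c * (D / y) ≤ c₀ * (D / y) := by gcongr
        have e3 : c₀ * (1 - 15 * D / rt n₀ + 15 * D / y) = c - c₀ * (D / y) := by
          rw [hcdef]; ring
        rw [e3]
        linarith [mul_sub c 1 (D / y)]
  intro a ha
  refine (main a ha).mono ?_
  have : 0 ≤ 15 * D / rt (a * n₀) := div_nonneg (by positivity) (rt_nonneg _)
  gcongr
  linarith

theorem Hyp.remainder (H : Hyp p) {n₁ : ℕ} (h₁ : 0 < n₁) (r m : ℕ) :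
    Real.exp (-(r * m / n₁)) * p n₁ m ≤ p (n₁ + r) m := by
  rcases Nat.eq_zero_or_pos r with rfl | hr
  · simp
  have p₁ : (0 : ℝ) < n₁ := by exact_mod_cast h₁
  refine le_trans ?_ (H.interp n₁ r m h₁ hr)
  refine le_trans ?_ (single_le_sum (f := fun j => (m.choose j : ℝ) * (n₁ / (n₁ + r) : ℝ) ^ j
        * (r / (n₁ + r) : ℝ) ^ (m - j) * (p n₁ j * p r (m - j))) (fun j _ => ?_)
        (self_mem_range_succ m))
  · simp only [Nat.choose_self, Nat.cast_one, one_mul, tsub_self, pow_zero, mul_one, H.zero]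
    refine mul_le_mul_of_nonneg_right ?_ (H.nonneg _ _)
    have e : -((r : ℝ) * m / n₁) = m * (-(r / n₁)) := by ring
    rw [e, Real.exp_nat_mul]
    refine pow_le_pow_left₀ (Real.exp_pos _).le ?_ m
    rw [Real.exp_neg, inv_le_comm₀ (Real.exp_pos _) (by positivity), inv_div, add_div,
      div_self p₁.ne', add_comm]
    exact Real.add_one_le_exp _
  · have := H.nonneg n₁ j
    have := H.nonneg r (m - j)
    positivity

theorem tendsto_div_rt_sq (B : ℝ) : Tendsto (fun n => B / rt n ^ 2) atTop (𝓝 0) :=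
  tendsto_const_nhds.div_atTop ((tendsto_pow_atTop (by norm_num)).comp rt_tendsto)

theorem Hyp.tendsto_one (H : Hyp p) {n₀ : ℕ} (h₀ : 0 < n₀) {c c₁ : ℝ} (hc : 0 ≤ c) (hcc : c < c₁)
    (G : ∀ a : ℕ, 0 < a → Good p (a * n₀) c₁) :
    Tendsto (fun n : ℕ => p n ⌊c * n⌋₊) atTop (𝓝 1) := by
  have c1 : 0 < c₁ := hc.trans_lt hcc
  obtain ⟨C, hC, hw⟩ := H.window c₁ c1
  set δ : ℝ := Real.exp (-(n₀ * c₁)) / 2 with hδ
  have δ0 : 0 < δ := by positivity
  have d0 : 0 < c₁ - c := by linarith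
  have lim : Tendsto (fun n => 1 - (4 * C * c₁ ^ 2 / (δ * (c₁ - c) ^ 2)) / rt n ^ 2) atTop (𝓝 1) := by
    simpa using (tendsto_div_rt_sq (4 * C * c₁ ^ 2 / (δ * (c₁ - c) ^ 2))).const_sub 1
  refine tendsto_of_tendsto_of_tendsto_of_le_of_le' lim tendsto_const_nhds ?_ ?_
  · have ev : ∀ᶠ n : ℕ in atTop, 2 * c₁ * n₀ / (c₁ - c) ≤ (n : ℝ) :=
      tendsto_natCast_atTop_atTop.eventually_ge_atTop _
    filter_upwards [ev, eventually_ge_atTop n₀] with n hn hn0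
    have npos : 0 < n := h₀.trans_le hn0
    have nR : (0 : ℝ) < n := by exact_mod_cast npos
    have apos : 0 < n / n₀ := Nat.div_pos hn0 h₀
    set n₁ := n / n₀ * n₀ with hn₁
    set r := n % n₀ with hr
    have e : n₁ + r = n := Nat.div_add_mod' n n₀
    have n1pos : 0 < n₁ := Nat.mul_pos apos h₀
    have n1R : (0 : ℝ) < n₁ := by exact_mod_cast n1pos
    have eR : (n₁ : ℝ) + r = n := by exact_mod_cast e
    have rlt : (r : ℝ) ≤ n₀ := by exact_mod_cast (Nat.mod_lt n h₀).le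
    have r0 : (0 : ℝ) ≤ r := Nat.cast_nonneg r
    set m := ⌊c₁ * n₁⌋₊ with hm
    have hm1 : (m : ℝ) ≤ c₁ * n₁ := Nat.floor_le (by positivity)
    have hm2 : c₁ * n₁ < m + 1 := Nat.lt_floor_add_one _
    have g := G (n / n₀) apos m hm1
    have rem := H.remainder n1pos r m
    rw [e] at rem
    have hexp : Real.exp (-(n₀ * c₁)) ≤ Real.exp (-(r * m / n₁)) := by
      apply Real.exp_le_exp.2
      rw [neg_le_neg_iff, div_le_iff₀ n1R, mul_assoc]
      gcongr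
    have pm : δ ≤ p n m := by
      refine le_trans ?_ rem
      rw [hδ, div_eq_mul_one_div]
      exact mul_le_mul hexp g (by norm_num) (Real.exp_pos _).le
    rw [div_le_iff₀ d0] at hn
    have gap : c * n + (c₁ - c) * n / 2 ≤ c₁ * n₁ := by
      have : c₁ * r ≤ c₁ * n₀ := by gcongr
      have e2 : c₁ * n₁ = c₁ * n - c₁ * r := by rw [← eR]; ring
      nlinarith
    have gap0 : 0 < (c₁ - c) * n / 2 := by positivity
    have hf1 : ((⌊c * n⌋₊ : ℕ) : ℝ) ≤ c * n := Nat.floor_le (by positivity)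
    have hle : ⌊c * n⌋₊ ≤ m := Nat.floor_le_floor (by linarith)
    have hmn : (m : ℝ) ≤ c₁ * n := hm1.trans (by gcongr; linarith)
    have w := hw n ⌊c * n⌋₊ m npos hle hmn
    have l1 : 0 ≤ 1 - p n ⌊c * n⌋₊ := sub_nonneg.2 (H.le_one _ _ npos)
    have y1 : 1 ≤ rt n := one_le_rt npos
    have w1 : δ * (1 - p n ⌊c * n⌋₊) * ((c₁ - c) * n / 2) ^ 2
        ≤ p n m * (1 - p n ⌊c * n⌋₊) * ((m : ℝ) - (⌊c * n⌋₊ : ℕ) + 1) ^ 2 := by
      have := H.nonneg n m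
      gcongr
      linarith
    have w2 : C * (m : ℝ) ^ 2 / rt n ^ 2 ≤ C * (c₁ * n) ^ 2 / rt n ^ 2 := by gcongr
    have w3 := w1.trans (w.trans w2)
    have w4 : 1 - p n ⌊c * n⌋₊ ≤ (4 * C * c₁ ^ 2 / (δ * (c₁ - c) ^ 2)) / rt n ^ 2 := by
      rw [div_div, le_div_iff₀ (by positivity)]
      rw [le_div_iff₀ (by positivity)] at w3
      have : ((1 - p n ⌊c * n⌋₊) * (δ * (c₁ - c) ^ 2 * rt n ^ 2)) * (n : ℝ) ^ 2
          ≤ (4 * C * c₁ ^ 2) * (n : ℝ) ^ 2 := by nlinarith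
      exact le_of_mul_le_mul_right this (by positivity)
    linarith
  · filter_upwards [eventually_gt_atTop 0] with n hn using H.le_one _ _ hn

theorem Hyp.tendsto_zero (H : Hyp p) {c c' : ℝ} (hc : 0 ≤ c') (hcc : c' < c)
    (G : ∀ᶠ n : ℕ in atTop, ¬ Good p n c') :
    Tendsto (fun n : ℕ => p n ⌊c * n⌋₊) atTop (𝓝 0) := by
  have c1 : 0 < c := hc.trans_lt hcc
  obtain ⟨C, hC, hw⟩ := H.window c c1
  have d0 : 0 < c - c' := by linarith
  refine tendsto_of_tendsto_of_tendsto_of_le_of_le' tendsto_const_nhds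
    (tendsto_div_rt_sq (2 * C * c ^ 2 / (c - c') ^ 2)) ?_ ?_
  · exact Eventually.of_forall fun n => H.nonneg _ _
  filter_upwards [G, eventually_gt_atTop 0] with n hn npos
  have nR : (0 : ℝ) < n := by exact_mod_cast npos
  unfold Good at hn
  push Not at hn
  obtain ⟨m₁, hm₁, hp⟩ := hn
  have hf1 : ((⌊c * n⌋₊ : ℕ) : ℝ) ≤ c * n := Nat.floor_le (by positivity)
  have hf2 : c * n < (⌊c * n⌋₊ : ℕ) + 1 := Nat.lt_floor_add_one _
  have hle : m₁ ≤ ⌊c * n⌋₊ := Nat.le_floor (hm₁.trans (by gcongr))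
  have w := hw n m₁ ⌊c * n⌋₊ npos hle hf1
  have y1 : 1 ≤ rt n := one_le_rt npos
  have p0 := H.nonneg n ⌊c * n⌋₊
  have w1 : p n ⌊c * n⌋₊ * (1 / 2) * ((c - c') * n) ^ 2
      ≤ p n ⌊c * n⌋₊ * (1 - p n m₁) * (((⌊c * n⌋₊ : ℕ) : ℝ) - m₁ + 1) ^ 2 := by
    have : 0 ≤ 1 - p n m₁ := by linarith
    gcongr
    · linarith
    · linarith [sub_mul c c' n]
  have w2 : C * ((⌊c * n⌋₊ : ℕ) : ℝ) ^ 2 / rt n ^ 2 ≤ C * (c * n) ^ 2 / rt n ^ 2 := by gcongr
  have w3 := w1.trans (w.trans w2)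
  rw [div_div, le_div_iff₀ (by positivity)]
  rw [le_div_iff₀ (by positivity)] at w3
  have : (p n ⌊c * n⌋₊ * ((c - c') ^ 2 * rt n ^ 2)) * (n : ℝ) ^ 2
      ≤ (2 * C * c ^ 2) * (n : ℝ) ^ 2 := by nlinarith
  exact le_of_mul_le_mul_right this (by positivity)

theorem Hyp.threshold (H : Hyp p) : ∃ α : ℝ, 0 < α ∧
    (∀ c : ℝ, 0 ≤ c → c < α → Tendsto (fun n : ℕ => p n ⌊c * n⌋₊) atTop (𝓝 1)) ∧
    (∀ c : ℝ, α < c → Tendsto (fun n : ℕ => p n ⌊c * n⌋₊) atTop (𝓝 0)) := by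
  obtain ⟨K, hK, hfirst⟩ := H.first
  obtain ⟨Cs, hCs, hsmall⟩ := H.small
  obtain ⟨D, hD, hmul⟩ := H.multiples (K + 2) (by linarith)
  set A : Set ℝ := {c | ∃ᶠ n : ℕ in atTop, Good p n c} with hA
  have hbdd : ∀ c ∈ A, c ≤ K := by
    intro c hc
    by_contra hcon
    push Not at hcon
    obtain ⟨n, g, hn⟩ := (hc.and_eventually hfirst).exists
    have := g.mono hcon.le ⌊K * n⌋₊ (Nat.floor_le (by positivity))
    linarith
  have hB : BddAbove A := ⟨K, hbdd⟩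
  have tD : Tendsto (fun n => D / rt n) atTop (𝓝 0) := tendsto_const_nhds.div_atTop rt_tendsto
  have t4 : Tendsto (fun n => 2 / rt n ^ 4) atTop (𝓝 0) :=
    tendsto_const_nhds.div_atTop ((tendsto_pow_atTop (by norm_num)).comp rt_tendsto)
  have ev1 : ∀ᶠ n : ℕ in atTop, D / rt n ≤ 1 / 2 := tD.eventually (eventually_le_nhds (by norm_num))
  have hpos : ∃ c ∈ A, 0 < c := by
    have ev2 : ∀ᶠ n : ℕ in atTop, 2 * Cs / rt n ^ 2 ≤ 1 / 2 :=
      (tendsto_div_rt_sq (2 * Cs)).eventually (eventually_le_nhds (by norm_num))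
    have ev3 : ∀ᶠ n : ℕ in atTop, 2 / rt n ^ 4 ≤ 1 := t4.eventually (eventually_le_nhds (by norm_num))
    obtain ⟨n₀, ⟨⟨e1, e2⟩, e3⟩, h₀⟩ := (((ev1.and ev2).and ev3).and (eventually_gt_atTop 0)).exists
    have y1 : 1 ≤ rt n₀ := one_le_rt h₀
    have g : Good p n₀ (2 / rt n₀ ^ 4) := by
      intro m hm
      have hmn : m ≤ n₀ := by
        have : (m : ℝ) ≤ n₀ := hm.trans (mul_le_of_le_one_left (Nat.cast_nonneg _) e3)
        exact_mod_cast this
      have s := hsmall n₀ m h₀ hmn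
      have s2 : Cs * m / rt n₀ ^ 4 ≤ Cs * (2 / rt n₀ ^ 4 * n₀) / rt n₀ ^ 4 := by gcongr
      have s3 : Cs * (2 / rt n₀ ^ 4 * n₀) / rt n₀ ^ 4 = 2 * Cs / rt n₀ ^ 2 := by
        rw [← rt_pow n₀]
        field_simp
      linarith
    have gm := hmul n₀ _ h₀ e1 le_rfl (by linarith) g
    refine ⟨2 / rt n₀ ^ 4 * (1 - D / rt n₀), ?_, mul_pos (by positivity) (by linarith)⟩
    refine frequently_atTop.2 fun N => ⟨(N + 1) * n₀, ?_, gm _ (Nat.succ_pos N)⟩
    nlinarith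
  obtain ⟨c₀, hc₀A, hc₀⟩ := hpos
  refine ⟨sSup A, hc₀.trans_le (le_csSup hB hc₀A), ?_, ?_⟩
  · intro c hc hlt
    obtain ⟨c₁, hc₁A, hc₁⟩ := exists_lt_of_lt_csSup ⟨c₀, hc₀A⟩ hlt
    have c1 : 0 < c₁ := hc.trans_lt hc₁
    have ev2 : ∀ᶠ n : ℕ in atTop, 2 / rt n ^ 4 ≤ c₁ := t4.eventually (eventually_le_nhds c1)
    have t5 : Tendsto (fun n => c₁ * (1 - D / rt n)) atTop (𝓝 c₁) := by
      simpa using (tD.const_sub 1).const_mul c₁
    have ev3 : ∀ᶠ n : ℕ in atTop, c < c₁ * (1 - D / rt n) := t5.eventually (lt_mem_nhds hc₁)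
    obtain ⟨n₀, g, ⟨⟨e1, e2⟩, e3⟩, h₀⟩ :=
      (Frequently.and_eventually hc₁A (((ev1.and ev2).and ev3).and (eventually_gt_atTop 0))).exists
    exact H.tendsto_one h₀ hc e3 (hmul n₀ c₁ h₀ e1 e2 (by linarith [hbdd c₁ hc₁A]) g)
  · intro c hlt
    have h0 : 0 < sSup A := hc₀.trans_le (le_csSup hB hc₀A)
    refine H.tendsto_zero (c' := (sSup A + c) / 2) (by linarith) (by linarith) ?_
    have : (sSup A + c) / 2 ∉ A := fun h => by linarith [le_csSup hB h]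
    exact not_frequently.1 this

end Vale.Agent.P170
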