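import Mathlib

/-!
Averaging operators on functions of a set of assignments.
-/

namespace Vale.Agent.P170

open Finset
open scoped BigOperators

variable {Ω : Type*}

/-- Averaging operator: intersect the current set with a uniformly random constraint. -/
noncomputable def op {C : Type*} [Fintype C] (ι : C → Set Ω) : Module.End ℝ (Set Ω → ℝ) where
  toFun f S := 𝔼 c, f (S ∩ ι c)
  map_add' f g := by
    funext S
    simp [expect_add_distrib]
  map_smul' a f := by
    funext S
    simp [mul_expect]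

theorem op_apply {C : Type*} [Fintype C] (ι : C → Set Ω) (f : Set Ω → ℝ) (S : Set Ω) :
    op ι f S = 𝔼 c, f (S ∩ ι c) := rfl

theorem op_commute {C D : Type*} [Fintype C] [Fintype D] (ι : C → Set Ω) (κ : D → Set Ω) :
    Commute (op ι) (op κ) := by
  apply LinearMap.ext
  intro f
  funext S
  simp only [Module.End.mul_apply, op_apply]
  rw [expect_comm]
  refine expect_congr rfl fun d _ => expect_congr rfl fun c _ => ?_
  rw [Set.inter_right_comm]

/-- A positive (order preserving) operator. -/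
def Pos (T : Module.End ℝ (Set Ω → ℝ)) : Prop := ∀ f g : Set Ω → ℝ, f ≤ g → T f ≤ T g

theorem Pos.one : Pos (1 : Module.End ℝ (Set Ω → ℝ)) := fun _ _ h => h

theorem Pos.mul {T U : Module.End ℝ (Set Ω → ℝ)} (hT : Pos T) (hU : Pos U) : Pos (T * U) :=
  fun f g h => hT _ _ (hU f g h)

theorem Pos.pow {T : Module.End ℝ (Set Ω → ℝ)} (hT : Pos T) (t : ℕ) : Pos (T ^ t) := by
  induction t with
  | zero => simpa using Pos.one
  | succ t ih => rw [pow_succ]; exact ih.mul hT

theorem Pos.add {T U : Module.End ℝ (Set Ω → ℝ)} (hT : Pos T) (hU : Pos U) : Pos (T + U) :=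
  fun f g h => add_le_add (hT f g h) (hU f g h)

theorem Pos.smul {T : Module.End ℝ (Set Ω → ℝ)} (hT : Pos T) {a : ℝ} (ha : 0 ≤ a) :
    Pos (a • T) :=
  fun f g h => smul_le_smul_of_nonneg_left (hT f g h) ha

theorem Pos.nonneg {T : Module.End ℝ (Set Ω → ℝ)} (hT : Pos T) {f : Set Ω → ℝ} (hf : 0 ≤ f) :
    0 ≤ T f := by
  simpa using hT 0 f hf

theorem op_pos {C : Type*} [Fintype C] (ι : C → Set Ω) : Pos (op ι) :=
  fun _ _ h S => expect_le_expect fun c _ => h (S ∩ ι c)

theorem op_const {C : Type*} [Fintype C] [Nonempty C] (ι : C → Set Ω) (a : ℝ) :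
    op ι (fun _ => a) = fun _ => a := by
  funext S
  simp [op_apply]

theorem op_pow_const {C : Type*} [Fintype C] [Nonempty C] (ι : C → Set Ω) (t : ℕ) (a : ℝ) :
    (op ι ^ t) (fun _ => a) = fun _ => a := by
  induction t with
  | zero => simp
  | succ t ih => rw [pow_succ, Module.End.mul_apply, op_const, ih]

theorem op_monotone {C : Type*} [Fintype C] (ι : C → Set Ω) {f : Set Ω → ℝ} (hf : Monotone f) :
    Monotone (op ι f) :=
  fun _ _ h => expect_le_expect fun c _ => hf (Set.inter_subset_inter_left (ι c) h)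

theorem op_pow_monotone {C : Type*} [Fintype C] (ι : C → Set Ω) (t : ℕ) {f : Set Ω → ℝ}
    (hf : Monotone f) : Monotone ((op ι ^ t) f) := by
  induction t with
  | zero => simpa using hf
  | succ t ih => rw [pow_succ', Module.End.mul_apply]; exact op_monotone ι ih

theorem op_le_self {C : Type*} [Fintype C] [Nonempty C] (ι : C → Set Ω) {f : Set Ω → ℝ}
    (hf : Monotone f) : op ι f ≤ f :=
  fun S => expect_le univ_nonempty fun c _ => hf (Set.inter_subset_left (s := S) (t := ι c))

theorem op_pow_empty {C : Type*} [Fintype C] [Nonempty C] (ι : C → Set Ω) (t : ℕ)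
    (f : Set Ω → ℝ) : (op ι ^ t) f ∅ = f ∅ := by
  induction t with
  | zero => simp
  | succ t ih => rw [pow_succ', Module.End.mul_apply, op_apply]; simp [ih]

open Classical in
/-- Indicator that a set is nonempty. -/
noncomputable def alive (S : Set Ω) : ℝ := if S.Nonempty then 1 else 0

theorem alive_empty : alive (∅ : Set Ω) = 0 := by simp [alive]

theorem alive_of_nonempty {S : Set Ω} (h : S.Nonempty) : alive S = 1 := by simp [alive, h]

theorem alive_nonneg (S : Set Ω) : 0 ≤ alive S := by unfold alive; split_ifs <;> norm_num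

theorem alive_le_one (S : Set Ω) : alive S ≤ 1 := by unfold alive; split_ifs <;> norm_num

theorem alive_monotone : Monotone (alive : Set Ω → ℝ) := by
  intro S T h
  rcases S.eq_empty_or_nonempty with rfl | hS
  · rw [alive_empty]; exact alive_nonneg T
  · rw [alive_of_nonempty hS, alive_of_nonempty (hS.mono h)]

theorem surv_nonneg {C : Type*} [Fintype C] (ι : C → Set Ω) (t : ℕ) (S : Set Ω) :
    0 ≤ (op ι ^ t) alive S :=
  ((op_pos ι).pow t).nonneg (f := alive) alive_nonneg S

theorem surv_le_one {C : Type*} [Fintype C] [Nonempty C] (ι : C → Set Ω) (t : ℕ) (S : Set Ω) :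
    (op ι ^ t) alive S ≤ 1 := by
  have := ((op_pos ι).pow t) alive (fun _ => 1) alive_le_one S
  rwa [op_pow_const] at this

theorem surv_succ_le {C : Type*} [Fintype C] [Nonempty C] (ι : C → Set Ω) (t : ℕ) (S : Set Ω) :
    (op ι ^ (t + 1)) alive S ≤ (op ι ^ t) alive S := by
  rw [pow_succ, Module.End.mul_apply]
  exact ((op_pos ι).pow t) _ _ (op_le_self ι alive_monotone) S

theorem surv_antitone {C : Type*} [Fintype C] [Nonempty C] (ι : C → Set Ω) (S : Set Ω) :
    Antitone fun t => (op ι ^ t) alive S :=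
  antitone_nat_of_succ_le fun t => surv_succ_le ι t S

/-- Simulation lemma. -/
theorem simulation {Ω' : Type*} {C : Type*} [Fintype C] (ι : C → Set Ω) (κ : C → Set Ω')
    (R : Set Ω → Set Ω' → Prop) (hR : ∀ S S' c, R S S' → R (S ∩ ι c) (S' ∩ κ c))
    (f : Set Ω → ℝ) (g : Set Ω' → ℝ) (hfg : ∀ S S', R S S' → f S ≤ g S') (t : ℕ) :
    ∀ S S', R S S' → (op ι ^ t) f S ≤ (op κ ^ t) g S' := by
  induction t with
  | zero => simpa using hfg
  | succ t ih =>
    intro S S' h
    rw [pow_succ', pow_succ', Module.End.mul_apply, Module.End.mul_apply, op_apply, op_apply]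
    exact expect_le_expect fun c _ => ih _ _ (hR S S' c h)

/-- Explicit formula for the powers. -/
theorem op_pow_apply {C : Type*} [Fintype C] (ι : C → Set Ω) (f : Set Ω → ℝ) (t : ℕ) :
    ∀ S : Set Ω, (op ι ^ t) f S = 𝔼 F : Fin t → C, f (S ∩ ⋂ i, ι (F i)) := by
  induction t with
  | zero => intro S; simp
  | succ t ih =>
    intro S
    rw [pow_succ', Module.End.mul_apply, op_apply]
    simp_rw [ih]
    rw [← expect_product', univ_product_univ]
    refine Fintype.expect_equiv (Fin.consEquiv fun _ => C) _ _ ?_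
    rintro ⟨c, F⟩
    congr 1
    ext σ
    simp [Fin.forall_fin_succ, and_assoc, Fin.consEquiv]

/-- The constraint given by a clause: the union of its literals. -/
def cl {Λ : Type*} (lit : Λ → Set Ω) (j : ℕ) (C : Fin j → Λ) : Set Ω := ⋃ i, lit (C i)

/-- Fraction of literals that are false on the whole set. -/
noncomputable def bb {Λ : Type*} [Fintype Λ] (lit : Λ → Set Ω) (S : Set Ω) : ℝ :=
  𝔼 l, (1 - alive (S ∩ lit l))

theorem bb_nonneg {Λ : Type*} [Fintype Λ] (lit : Λ → Set Ω) (S : Set Ω) : 0 ≤ bb lit S :=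
  expect_nonneg fun _ _ => sub_nonneg.2 (alive_le_one _)

theorem bb_le_one {Λ : Type*} [Fintype Λ] [Nonempty Λ] (lit : Λ → Set Ω) (S : Set Ω) :
    bb lit S ≤ 1 :=
  expect_le univ_nonempty fun _ _ => sub_le_self _ (alive_nonneg _)

theorem one_sub_alive_cl {Λ : Type*} (lit : Λ → Set Ω) (j : ℕ) (C : Fin j → Λ) (S : Set Ω) :
    1 - alive (S ∩ cl lit j C) = ∏ i, (1 - alive (S ∩ lit (C i))) := by
  rcases (S ∩ cl lit j C).eq_empty_or_nonempty with h | h
  · rw [h, alive_empty, eq_comm, sub_zero]
    refine prod_eq_one fun i _ => ?_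
    have : S ∩ lit (C i) = ∅ := by
      refine Set.subset_empty_iff.1 ?_
      rw [← h]
      exact Set.inter_subset_inter_right _ (Set.subset_iUnion (fun i => lit (C i)) i)
    rw [this, alive_empty, sub_zero]
  · rw [alive_of_nonempty h, sub_self, eq_comm]
    obtain ⟨σ, hσ, hσ'⟩ := h
    obtain ⟨i, hi⟩ := Set.mem_iUnion.1 hσ'
    refine prod_eq_zero (mem_univ i) ?_
    rw [alive_of_nonempty (S := S ∩ lit (C i)) ⟨σ, hσ, hi⟩, sub_self]

theorem op_cl_alive' {Λ : Type*} [Fintype Λ] [Nonempty Λ] (lit : Λ → Set Ω) (j : ℕ) (S : Set Ω) :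
    op (cl lit j) alive S = 1 - bb lit S ^ j := by
  classical
  rw [bb, expect_pow, Fintype.piFinset_univ, op_apply]
  simp_rw [← one_sub_alive_cl]
  rw [expect_sub_distrib]
  simp

theorem bb_empty {Λ : Type*} [Fintype Λ] [Nonempty Λ] (lit : Λ → Set Ω) :
    bb lit ∅ = 1 := by
  simp [bb, alive_empty]

theorem op_cl_alive {Λ : Type*} [Fintype Λ] [Nonempty Λ] (lit : Λ → Set Ω) (j : ℕ) (S : Set Ω) :
    alive S - op (cl lit j) alive S = alive S * bb lit S ^ j := by
  rw [op_cl_alive']
  rcases S.eq_empty_or_nonempty with rfl | hS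
  · simp [bb_empty, alive_empty]
  · simp [alive_of_nonempty hS]

theorem op_lit_alive {Λ : Type*} [Fintype Λ] [Nonempty Λ] (lit : Λ → Set Ω) (S : Set Ω) :
    alive S - op lit alive S = alive S * bb lit S := by
  rcases S.eq_empty_or_nonempty with rfl | hS
  · simp [op_apply, alive_empty]
  · simp [alive_of_nonempty hS, bb, op_apply, expect_sub_distrib]

end Vale.Agent.P170
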