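import Vale.Agent.P170.Defs
import Vale.Agent.P170.Interp
import Vale.Agent.P170.Limit

/-!
The model with replacement has a threshold, and the threshold transfers to proper clauses.
-/

namespace Vale.Agent.P170

open Finset Filter Topology
open scoped BigOperators

theorem aux_bound (j n m : ℕ) (hj : 2 ≤ j) (hn : 0 < n) (K : ℝ) (hK : 0 < K) (hm : (m : ℝ) ≤ K * n) :
    (2 : ℝ) ^ j * ((m + 1) * (1 / rt n ^ 2) ^ j + 1 / (1 / rt n ^ 2))
      ≤ 2 ^ j * (K + 2) * rt n ^ 2 := by
  have y1 : 1 ≤ rt n := one_le_rt hn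
  have y6 := rt_pow n
  have nR : (1 : ℝ) ≤ n := by exact_mod_cast hn
  have h1 : (1 / rt n ^ 2) ^ j ≤ (1 / rt n ^ 2) ^ 2 := by
    refine pow_le_pow_of_le_one (by positivity) ?_ hj
    rw [div_le_one (by positivity)]
    exact one_le_pow₀ y1
  have h2 : ((m : ℝ) + 1) * (1 / rt n ^ 2) ^ j ≤ ((K + 1) * rt n ^ 6) * (1 / rt n ^ 2) ^ 2 := by
    gcongr
    rw [y6]
    linarith [add_mul K 1 n]
  have h3 : ((K + 1) * rt n ^ 6) * (1 / rt n ^ 2) ^ 2 = (K + 1) * rt n ^ 2 := by field_simp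
  rw [one_div_one_div, mul_assoc]
  gcongr
  linarith [add_mul K 2 (rt n ^ 2), add_mul K 1 (rt n ^ 2)]

theorem eta_ok {n : ℕ} (hn : 0 < n) : 1 / (Fintype.card (Fin n) : ℝ) ≤ 1 / rt n ^ 2 := by
  have y1 : 1 ≤ rt n := one_le_rt hn
  rw [Fintype.card_fin, ← rt_pow n]
  gcongr
  norm_num

theorem hyp_pr (j : ℕ) (hj : 2 ≤ j) : Hyp fun n m => pr (Fin n) (j + 1) m where
  nonneg n m := pr_nonneg _ _
  le_one n m hn := by
    have : Nonempty (Fin n) := ⟨⟨0, hn⟩⟩
    exact pr_le_one _ _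
  zero n := pr_zero _
  window K hK := by
    refine ⟨(j + 1) * (2 ^ j * (K + 2)) ^ 2, by positivity, fun n m₁ m₂ hn hm hmK => ?_⟩
    have : Nonempty (Fin n) := ⟨⟨0, hn⟩⟩
    have y1 : 1 ≤ rt n := one_le_rt hn
    have h := window_raw (V := Fin n) j m₁ m₂ hm _ (eta_ok hn)
    have h2 := aux_bound j n m₂ hj hn K hK hmK
    rw [Fintype.card_fin] at h
    refine h.trans ?_
    calc _ ≤ (m₂ : ℝ) ^ 2 * ((j + 1) / n) * (2 ^ j * (K + 2) * rt n ^ 2) ^ 2 := by gcongr
      _ = _ := by
        nth_rewrite 1 [← rt_pow n]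
        field_simp
  small := by
    refine ⟨(j + 1) * (2 ^ j * (1 + 2)), by positivity, fun n m hn hm => ?_⟩
    have : Nonempty (Fin n) := ⟨⟨0, hn⟩⟩
    have y1 : 1 ≤ rt n := one_le_rt hn
    have h := small_raw (V := Fin n) j m _ (eta_ok hn)
    have h2 := aux_bound j n m hj hn 1 one_pos (by rw [one_mul]; exact_mod_cast hm)
    rw [Fintype.card_fin] at h
    refine h.trans ?_
    calc _ ≤ (m : ℝ) * ((j + 1) / n * (2 ^ j * (1 + 2) * rt n ^ 2)) := by gcongr
      _ = _ := by
        nth_rewrite 1 [← rt_pow n]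
        field_simp
  interp n₁ n₂ m h₁ h₂ := interp _ n₁ n₂ m h₁ h₂
  first := by
    set r : ℝ := 1 - (1 / 2) ^ (j + 1) with hr
    have r1 : r < 1 := by rw [hr]; linarith [pow_pos (show (0 : ℝ) < 1 / 2 by norm_num) (j + 1)]
    have r0 : 0 ≤ r := by
      rw [hr]; linarith [pow_le_one₀ (n := j + 1) (show (0 : ℝ) ≤ 1 / 2 by norm_num) (by norm_num)]
    obtain ⟨K, hK⟩ := exists_pow_lt_of_lt_one (show (0 : ℝ) < 1 / 8 by norm_num) r1
    refine ⟨(K + 1 : ℕ), by positivity, ?_⟩
    filter_upwards [eventually_gt_atTop 0] with n hn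
    have : Nonempty (Fin n) := ⟨⟨0, hn⟩⟩
    have h := first_moment (V := Fin n) (j + 1) ((K + 1) * n)
    rw [← Nat.cast_mul, Nat.floor_natCast]
    refine h.trans_lt ?_
    rw [Fintype.card_fin, ← hr, pow_mul, ← mul_pow]
    have h1 : r ^ (K + 1) ≤ r ^ K := pow_le_pow_of_le_one r0 r1.le (Nat.le_succ K)
    have h2 : (2 * r ^ (K + 1)) ^ n ≤ 2 * r ^ (K + 1) :=
      pow_le_of_le_one (by positivity) (by linarith) hn.ne'
    linarith

/-- The set of assignments satisfying a proper clause. -/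
def pcl (k n : ℕ) (D : ProperClause k n) : Set (Fin n → Bool) := {σ | ∃ l ∈ D.1, σ l.1 = l.2}

theorem satProb_eq (k n m : ℕ) : satProb k n m = (op (pcl k n) ^ m) alive Set.univ := by
  classical
  rw [op_pow_apply, expect_eq_sum_div_card, satProb, Nat.card_eq_fintype_card,
    Nat.card_eq_fintype_card, Fintype.card_subtype, card_univ, card_filter]
  congr 1
  push_cast
  refine sum_congr rfl fun F _ => ?_
  have : (Set.univ ∩ ⋂ i, pcl k n (F i)).Nonempty ↔ Satisfiable F := by
    simp [Set.Nonempty, pcl, Satisfiable]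
  unfold alive
  simp only [this]

/-- Sequences of literals on distinct variables. -/
noncomputable def injCl (k n : ℕ) : Finset (Fin k → Fin n × Bool) := by
  classical
  exact univ.filter fun C => Function.Injective fun i => (C i).1

theorem mem_injCl {k n : ℕ} {C : Fin k → Fin n × Bool} :
    C ∈ injCl k n ↔ Function.Injective fun i => (C i).1 := by
  simp [injCl]

theorem fiber_card (k n : ℕ) (D : ProperClause k n) :
    ((injCl k n).filter fun C => univ.image C = D.1).card = k.factorial := by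
  have hinj : Set.InjOn Prod.fst (D.1 : Set (Fin n × Bool)) :=
    card_image_iff.1 (D.2.2.trans D.2.1.symm)
  have e : k.factorial = (univ : Finset (Fin k ↪ D.1)).card := by
    rw [card_univ, Fintype.card_embedding_eq, Fintype.card_coe, D.2.1, Fintype.card_fin,
      Nat.descFactorial_self]
  rw [e, eq_comm]
  refine card_bij (fun e _ i => (e i).1) ?_ ?_ ?_
  · intro e _
    have h1 : Function.Injective fun i => (e i).1 := Subtype.val_injective.comp e.injective
    rw [mem_filter, mem_injCl]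
    refine ⟨fun i i' h => h1 (hinj (e i).2 (e i').2 h), ?_⟩
    refine eq_of_subset_of_card_le ?_ ?_
    · intro l hl
      obtain ⟨i, -, rfl⟩ := mem_image.1 hl
      exact (e i).2
    · rw [card_image_of_injective _ h1, D.2.1, card_univ, Fintype.card_fin]
  · intro e _ e' _ h
    ext1 i
    exact Subtype.ext (congrFun h i)
  · intro C hC
    rw [mem_filter, mem_injCl] at hC
    refine ⟨⟨fun i => ⟨C i, hC.2 ▸ mem_image_of_mem C (mem_univ i)⟩, fun i i' h => ?_⟩,
      mem_univ _, rfl⟩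
    exact hC.1 (congrArg (fun l : D.1 => l.1.1) h)

theorem sum_injCl (k n : ℕ) (g : Finset (Fin n × Bool) → ℝ) :
    ∑ C ∈ injCl k n, g (univ.image C) = k.factorial * ∑ D : ProperClause k n, g D.1 := by
  classical
  have hmaps : ∀ C ∈ injCl k n, univ.image C ∈ (univ.filter fun D : Finset (Fin n × Bool) =>
      D.card = k ∧ (D.image Prod.fst).card = k) := by
    intro C hC
    rw [mem_injCl] at hC
    have h1 : Function.Injective C := fun i i' h => hC (congrArg Prod.fst h)
    refine mem_filter.2 ⟨mem_univ _, ?_, ?_⟩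
    · rw [card_image_of_injective _ h1, card_univ, Fintype.card_fin]
    · rw [image_image, card_image_of_injective (f := Prod.fst ∘ C) _ hC, card_univ,
        Fintype.card_fin]
  rw [← sum_fiberwise_of_maps_to hmaps, mul_sum,
    sum_subtype (p := fun D : Finset (Fin n × Bool) => D.card = k ∧ (D.image Prod.fst).card = k)
      _ (by simp)]
  refine sum_congr rfl fun D _ => ?_
  rw [sum_congr rfl (g := fun _ => g D.1) (fun C hC => by rw [(mem_filter.1 hC).2]), sum_const,
    fiber_card, nsmul_eq_mul]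

theorem card_injCl_ge (k n : ℕ) : (n - k) ^ k * 2 ^ k ≤ (injCl k n).card := by
  have h1 : (n - k) ^ k ≤ n.descFactorial k :=
    (Nat.pow_le_pow_left (by omega) k).trans (Nat.pow_sub_le_descFactorial n k)
  have h2 : (univ : Finset ((Fin k ↪ Fin n) × (Fin k → Bool))).card ≤ (injCl k n).card := by
    refine card_le_card_of_injOn (fun q i => (q.1 i, q.2 i)) ?_ ?_
    · intro q _
      exact mem_coe.2 (mem_injCl.2 q.1.injective)
    · intro q _ q' _ h
      refine Prod.ext ?_ ?_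
      · ext1 i
        exact congrArg Prod.fst (congrFun h i)
      · funext i
        exact congrArg Prod.snd (congrFun h i)
  rw [card_univ, Fintype.card_prod, Fintype.card_embedding_eq, Fintype.card_fun] at h2
  simp only [Fintype.card_fin, Fintype.card_bool] at h2
  exact (Nat.mul_le_mul_right _ h1).trans h2

theorem op_pcl_le (k n : ℕ) (hkn : k < n) (f : Set (Fin n → Bool) → ℝ) (hf : 0 ≤ f) :
    (((n - k : ℕ) : ℝ) / n) ^ k • op (pcl k n) f ≤ op (cl lit k) f := by
  classical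
  intro S
  have nR : (0 : ℝ) < n := by exact_mod_cast (Nat.zero_le k).trans_lt hkn
  have h1 := sum_injCl k n fun D => f (S ∩ {σ | ∃ l ∈ D, σ l.1 = l.2})
  have h2 := sum_injCl k n fun _ => 1
  have h3 : (((n - k : ℕ) : ℝ)) ^ k * 2 ^ k ≤ (injCl k n).card := by
    exact_mod_cast card_injCl_ge k n
  simp only [sum_const, nsmul_eq_mul, mul_one, card_univ] at h2
  have h4 : ∑ C ∈ injCl k n, f (S ∩ {σ | ∃ l ∈ univ.image C, σ l.1 = l.2})
      ≤ ∑ C, f (S ∩ cl lit k C) := by
    refine le_trans (le_of_eq (sum_congr rfl fun C _ => ?_))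
      (sum_le_sum_of_subset_of_nonneg (subset_univ (injCl k n)) fun C _ _ => hf _)
    congr 2
    ext σ
    simp [cl, lit]
  have hT : 0 ≤ ∑ D : ProperClause k n, f (S ∩ pcl k n D) := sum_nonneg fun D _ => hf _
  have hpos : (0 : ℝ) < ((n - k : ℕ) : ℝ) ^ k * 2 ^ k := by
    have : 0 < n - k := by omega
    positivity
  have hc : (0 : ℝ) < Fintype.card (ProperClause k n) := by
    by_contra hcon
    have : (k.factorial : ℝ) * Fintype.card (ProperClause k n) ≤ 0 :=
      mul_nonpos_of_nonneg_of_nonpos (Nat.cast_nonneg _) (not_lt.1 hcon)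
    linarith
  rw [Pi.smul_apply, smul_eq_mul, op_apply, op_apply, expect_eq_sum_div_card,
    expect_eq_sum_div_card, card_univ, card_univ, Fintype.card_fun, Fintype.card_prod,
    Fintype.card_fin, Fintype.card_fin, Fintype.card_bool]
  push_cast
  rw [div_pow, div_mul_div_comm, div_le_div_iff₀ (by positivity) (by positivity), mul_pow]
  change _ = _ * ∑ D : ProperClause k n, f (S ∩ pcl k n D) at h1
  set T := ∑ D : ProperClause k n, f (S ∩ pcl k n D)
  set U := ∑ C, f (S ∩ cl lit k C)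
  set N : ℝ := (Fintype.card (ProperClause k n) : ℝ)
  have h5 : (((n - k : ℕ) : ℝ) ^ k * 2 ^ k) * T ≤ U * N := by
    calc _ ≤ (k.factorial * N) * T := by rw [← h2]; gcongr
      _ = (k.factorial * T) * N := by ring
      _ ≤ U * N := by rw [← h1]; gcongr
  calc _ = ((((n - k : ℕ) : ℝ) ^ k * 2 ^ k) * T) * (n : ℝ) ^ k := by ring
    _ ≤ (U * N) * (n : ℝ) ^ k := by gcongr
    _ = _ := by ring

theorem pow_smul_le {Ω : Type*} {P T : Module.End ℝ (Set Ω → ℝ)} (hP : Pos P) (hT : Pos T) (a : ℝ)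
    (ha : 0 ≤ a) (h : ∀ f, 0 ≤ f → a • T f ≤ P f) (f : Set Ω → ℝ) (hf : 0 ≤ f) (m : ℕ) :
    a ^ m • (T ^ m) f ≤ (P ^ m) f := by
  induction m with
  | zero => simp
  | succ m ih =>
    calc a ^ (m + 1) • (T ^ (m + 1)) f = a ^ m • (a • T ((T ^ m) f)) := by
          rw [smul_smul, ← pow_succ, pow_succ' T, Module.End.mul_apply]
      _ ≤ a ^ m • P ((T ^ m) f) :=
          smul_le_smul_of_nonneg_left (h _ ((hT.pow m).nonneg hf)) (pow_nonneg ha m)
      _ = P (a ^ m • (T ^ m) f) := by rw [map_smul]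
      _ ≤ P ((P ^ m) f) := hP _ _ ih
      _ = (P ^ (m + 1)) f := by rw [pow_succ', Module.End.mul_apply]

theorem nonempty_properClause (k n : ℕ) (hkn : k < n) : Nonempty (ProperClause k n) := by
  have h2 := sum_injCl k n fun _ => 1
  have h3 := card_injCl_ge k n
  have hpos : 0 < (n - k) ^ k * 2 ^ k := by
    have : 0 < n - k := by omega
    positivity
  by_contra hcon
  rw [not_nonempty_iff] at hcon
  simp only [sum_const, nsmul_eq_mul, mul_one, univ_eq_empty, card_empty, Nat.cast_zero, mul_zero,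
    Nat.cast_eq_zero] at h2
  omega

theorem exp_le_ratio (k n m : ℕ) (c : ℝ) (hc : 0 ≤ c) (hkn : 2 * k < n) (hm : (m : ℝ) ≤ c * n) :
    Real.exp (-(2 * k ^ 2 * c)) ≤ ((((n - k : ℕ) : ℝ) / n) ^ k) ^ m := by
  have h1 : (2 : ℝ) * k < n := by exact_mod_cast hkn
  have k0 : (0 : ℝ) ≤ k := Nat.cast_nonneg k
  have nR : (0 : ℝ) < n := by linarith
  have d0 : (0 : ℝ) < n - k := by linarith
  rw [Nat.cast_sub (by omega), ← pow_mul]
  have h2 : Real.exp (-(k / (n - k))) ≤ ((n : ℝ) - k) / n := by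
    rw [Real.exp_neg, inv_le_comm₀ (Real.exp_pos _) (by positivity), inv_div]
    refine le_trans (le_of_eq ?_) (Real.add_one_le_exp _)
    field_simp
    ring
  refine le_trans ?_ (pow_le_pow_left₀ (Real.exp_pos _).le h2 _)
  rw [← Real.exp_nat_mul]
  apply Real.exp_le_exp.2
  push_cast
  rw [mul_neg, neg_le_neg_iff, ← mul_div_assoc, div_le_iff₀ d0]
  have h3 : (k : ℝ) * m * k ≤ k * (c * n) * k := by gcongr
  have h4 : 0 ≤ (k : ℝ) ^ 2 * c * (n - 2 * k) := by
    have : (0 : ℝ) ≤ n - 2 * k := by linarith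
    positivity
  nlinarith

theorem transfer (k n m : ℕ) (c : ℝ) (hc : 0 ≤ c) (hkn : 2 * k < n) (hm : (m : ℝ) ≤ c * n) :
    0 ≤ satProb k n m ∧ satProb k n m ≤ 1 ∧
    satProb k n m ≤ Real.exp (2 * k ^ 2 * c) * pr (Fin n) k m ∧
    1 - satProb k n m ≤ Real.exp (2 * k ^ 2 * c) * (1 - pr (Fin n) k m) := by
  have hkn' : k < n := by omega
  have : Nonempty (ProperClause k n) := nonempty_properClause k n hkn'
  have : Nonempty (Fin n) := ⟨⟨0, by omega⟩⟩
  have s0 : 0 ≤ satProb k n m := by rw [satProb_eq]; exact surv_nonneg _ _ _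
  have s1 : satProb k n m ≤ 1 := by rw [satProb_eq]; exact surv_le_one _ _ _
  have e := exp_le_ratio k n m c hc hkn hm
  have hee : Real.exp (2 * k ^ 2 * c) * Real.exp (-(2 * k ^ 2 * c)) = 1 := by
    rw [← Real.exp_add]; simp
  have E0 := Real.exp_pos (2 * k ^ 2 * c)
  have h1 := pow_smul_le (op_pos (cl lit k)) (op_pos (pcl k n)) _ (by positivity)
    (op_pcl_le k n hkn') alive alive_nonneg m Set.univ
  have h2 := pow_smul_le (op_pos (cl lit k)) (op_pos (pcl k n)) _ (by positivity)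
    (op_pcl_le k n hkn') ((fun _ => 1) - alive) (fun S => sub_nonneg.2 (alive_le_one S)) m Set.univ
  rw [Pi.smul_apply, smul_eq_mul, ← satProb_eq] at h1
  rw [Pi.smul_apply, smul_eq_mul, map_sub, map_sub, op_pow_const, op_pow_const, Pi.sub_apply,
    Pi.sub_apply, ← satProb_eq] at h2
  change _ ≤ pr (Fin n) k m at h1
  change _ ≤ 1 - pr (Fin n) k m at h2
  refine ⟨s0, s1, ?_, ?_⟩
  · calc satProb k n m
        = Real.exp (2 * k ^ 2 * c) * (Real.exp (-(2 * k ^ 2 * c)) * satProb k n m) := by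
          rw [← mul_assoc, hee, one_mul]
      _ ≤ _ := by
          refine mul_le_mul_of_nonneg_left (le_trans ?_ h1) E0.le
          gcongr
  · calc 1 - satProb k n m
        = Real.exp (2 * k ^ 2 * c) * (Real.exp (-(2 * k ^ 2 * c)) * (1 - satProb k n m)) := by
          rw [← mul_assoc, hee, one_mul]
      _ ≤ _ := by
          refine mul_le_mul_of_nonneg_left (le_trans ?_ h2) E0.le
          have : 0 ≤ 1 - satProb k n m := by linarith
          gcongr

theorem threshold_exists (k : ℕ) (hk : 3 ≤ k) : ∃ α : ℝ, 0 < α ∧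
    (∀ c : ℝ, 0 ≤ c → c < α → Tendsto (fun n : ℕ => satProb k n ⌊c * n⌋₊) atTop (𝓝 1)) ∧
    (∀ c : ℝ, α < c → Tendsto (fun n : ℕ => satProb k n ⌊c * n⌋₊) atTop (𝓝 0)) := by
  obtain ⟨j, rfl⟩ : ∃ j, k = j + 1 := ⟨k - 1, by omega⟩
  obtain ⟨α, hα, h1, h0⟩ := (hyp_pr j (by omega)).threshold
  refine ⟨α, hα, fun c hc hlt => ?_, fun c hlt => ?_⟩
  · have lim : Tendsto (fun n : ℕ => 1 - Real.exp (2 * ((j + 1 : ℕ) : ℝ) ^ 2 * c)
        * (1 - pr (Fin n) (j + 1) ⌊c * n⌋₊)) atTop (𝓝 1) := by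
      simpa using (((h1 c hc hlt).const_sub 1).const_mul
        (Real.exp (2 * ((j + 1 : ℕ) : ℝ) ^ 2 * c))).const_sub 1
    refine tendsto_of_tendsto_of_tendsto_of_le_of_le' lim tendsto_const_nhds ?_ ?_
    · filter_upwards [eventually_gt_atTop (2 * (j + 1))] with n hn
      have := (transfer (j + 1) n ⌊c * n⌋₊ c hc hn (Nat.floor_le (by positivity))).2.2.2
      linarith
    · filter_upwards [eventually_gt_atTop (2 * (j + 1))] with n hn
      exact (transfer (j + 1) n ⌊c * n⌋₊ c hc hn (Nat.floor_le (by positivity))).2.1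
  · have hc : 0 ≤ c := by linarith
    have lim : Tendsto (fun n : ℕ => Real.exp (2 * ((j + 1 : ℕ) : ℝ) ^ 2 * c)
        * pr (Fin n) (j + 1) ⌊c * n⌋₊) atTop (𝓝 0) := by
      simpa using (h0 c hlt).const_mul (Real.exp (2 * ((j + 1 : ℕ) : ℝ) ^ 2 * c))
    refine tendsto_of_tendsto_of_tendsto_of_le_of_le' tendsto_const_nhds lim ?_ ?_
    · filter_upwards [eventually_gt_atTop (2 * (j + 1))] with n hn
      exact (transfer (j + 1) n ⌊c * n⌋₊ c hc hn (Nat.floor_le (by positivity))).1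
    · filter_upwards [eventually_gt_atTop (2 * (j + 1))] with n hn
      exact (transfer (j + 1) n ⌊c * n⌋₊ c hc hn (Nat.floor_le (by positivity))).2.2.1

end Vale.Agent.P170
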