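import Vale.Agent.P170.Op

/-!
Second moment bound for the truncated hitting time.
-/

namespace Vale.Agent.P170

open Finset
open scoped BigOperators

variable {Ω : Type*}

/-- Truncated geometric sum of an operator. -/
noncomputable def geo (T : Module.End ℝ (Set Ω → ℝ)) (M : ℕ) : Module.End ℝ (Set Ω → ℝ) :=
  ∑ t ∈ range (M + 1), T ^ t

theorem geo_zero (T : Module.End ℝ (Set Ω → ℝ)) : geo T 0 = 1 := by simp [geo]

theorem geo_succ (T : Module.End ℝ (Set Ω → ℝ)) (M : ℕ) : geo T (M + 1) = 1 + T * geo T M := by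
  rw [geo, geom_sum_succ, add_comm, geo]

theorem geo_succ' (T : Module.End ℝ (Set Ω → ℝ)) (M : ℕ) :
    geo T (M + 1) = geo T M + T ^ (M + 1) := by
  rw [geo, sum_range_succ, geo]

theorem geo_apply (T : Module.End ℝ (Set Ω → ℝ)) (M : ℕ) (f : Set Ω → ℝ) (S : Set Ω) :
    geo T M f S = ∑ t ∈ range (M + 1), (T ^ t) f S := by
  simp [geo, LinearMap.sum_apply, Finset.sum_apply]

theorem Pos.geo {T : Module.End ℝ (Set Ω → ℝ)} (hT : Pos T) (M : ℕ) : Pos (geo T M) := by
  induction M with
  | zero => rw [geo_zero]; exact Pos.one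
  | succ M ih => rw [geo_succ]; exact Pos.one.add (hT.mul ih)

theorem geo_commute {T U : Module.End ℝ (Set Ω → ℝ)} (h : Commute U T) (M : ℕ) :
    Commute U (geo T M) :=
  Commute.sum_right _ _ _ fun t _ => h.pow_right t

theorem geo_monotone {C : Type*} [Fintype C] (ι : C → Set Ω) (M : ℕ) {f : Set Ω → ℝ}
    (hf : Monotone f) : Monotone (geo (op ι) M f) := by
  intro S T h
  rw [geo_apply, geo_apply]
  exact sum_le_sum fun t _ => op_pow_monotone ι t hf h

theorem geo_const {C : Type*} [Fintype C] [Nonempty C] (ι : C → Set Ω) (M : ℕ) (a : ℝ)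
    (S : Set Ω) : geo (op ι) M (fun _ => a) S = (M + 1) * a := by
  rw [geo_apply]
  simp [op_pow_const]

theorem geo_empty {C : Type*} [Fintype C] [Nonempty C] (ι : C → Set Ω) (M : ℕ) :
    geo (op ι) M alive ∅ = 0 := by
  rw [geo_apply]
  simp [op_pow_empty, alive_empty]

/-- Telescoping: the total killing probability is at most one. -/
theorem geo_kill_le_one {C : Type*} [Fintype C] (ι : C → Set Ω) (M : ℕ) (S : Set Ω) :
    geo (op ι) M (alive - op ι alive) S ≤ 1 := by
  have h : geo (op ι) M * (1 - op ι) = 1 - op ι ^ (M + 1) := by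
    rw [geo]; exact geom_sum_mul_neg _ _
  have h2 := congrFun (LinearMap.congr_fun h alive) S
  simp only [Module.End.mul_apply, LinearMap.sub_apply, Module.End.one_apply, Pi.sub_apply] at h2
  rw [h2]
  have := surv_nonneg ι (M + 1) S
  have := alive_le_one S
  linarith

/-- The loss of a commuting step equals the geometric sum of its one-step killing function. -/
theorem geo_sub_op {C D : Type*} [Fintype C] [Fintype D] (ι : C → Set Ω) (κ : D → Set Ω) (M : ℕ)
    (f : Set Ω → ℝ) (S : Set Ω) :
    geo (op ι) M f S - op κ (geo (op ι) M f) S = geo (op ι) M (f - op κ f) S := by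
  have h := (geo_commute (op_commute κ ι) M).eq
  have h2 := congrFun (LinearMap.congr_fun h f) S
  simp only [Module.End.mul_apply] at h2
  rw [h2, map_sub, Pi.sub_apply]

/-- Second moment of the truncated hitting time. -/
noncomputable def mom2 (T : Module.End ℝ (Set Ω → ℝ)) (M : ℕ) (S : Set Ω) : ℝ :=
  ∑ t ∈ range (M + 1), (2 * t + 1) * (T ^ t) alive S

theorem mom2_succ {C : Type*} [Fintype C] (ι : C → Set Ω) (M : ℕ) (S : Set Ω) :
    mom2 (op ι) (M + 1) S
      = alive S + op ι (mom2 (op ι) M) S + 2 * op ι (geo (op ι) M alive) S := by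
  rw [mom2, sum_range_succ']
  simp only [op_apply, mom2, geo_apply, pow_succ', Module.End.mul_apply]
  rw [expect_sum_comm, expect_sum_comm, mul_sum, add_assoc, ← sum_add_distrib]
  simp only [Nat.cast_zero, mul_zero, zero_add, pow_zero, Module.End.one_apply, one_mul]
  rw [add_comm]
  congr 1
  refine sum_congr rfl fun t _ => ?_
  rw [← mul_expect]
  push_cast
  ring

theorem variance_le {C : Type*} [Fintype C] [Nonempty C] (ι : C → Set Ω) (h : Set Ω → ℝ)
    (hh : 0 ≤ h) (a : ℝ) (ha : 0 ≤ a) (M₀ : ℕ)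
    (H : ∀ M ≤ M₀, ∀ S, 𝔼 c, (geo (op ι) M alive S - geo (op ι) M alive (S ∩ ι c)) ^ 2
      ≤ a * geo (op ι) M h S) :
    ∀ M ≤ M₀, ∀ S, mom2 (op ι) M S - (geo (op ι) M alive S) ^ 2 ≤ a * M * geo (op ι) M h S := by
  intro M
  induction M with
  | zero =>
    intro _ S
    rw [geo_zero]
    simp only [mom2, zero_add, range_one, sum_singleton, Nat.cast_zero, mul_zero, pow_zero,
      Module.End.one_apply, one_mul, zero_mul]
    unfold alive
    split_ifs <;> norm_num
  | succ M ih =>
    intro hM S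
    have hM' : M ≤ M₀ := by omega
    set g := geo (op ι) M alive with hg
    set A := geo (op ι) M h with hA
    have e1 : geo (op ι) (M + 1) alive S = alive S + op ι g S := by
      rw [geo_succ]; rfl
    have e2 : geo (op ι) (M + 1) h S = h S + op ι A S := by
      rw [geo_succ]; rfl
    have e3 : A S ≤ geo (op ι) (M + 1) h S := by
      rw [geo_succ']
      have := ((op_pos ι).pow (M + 1)).nonneg hh S
      simp only [LinearMap.add_apply, Pi.add_apply]
      simp only [Pi.zero_apply] at this
      linarith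
    have e4 : alive S * op ι g S = op ι g S := by
      rcases S.eq_empty_or_nonempty with rfl | hS
      · simp [op_apply, hg, geo_empty]
      · rw [alive_of_nonempty hS, one_mul]
    have e5 : alive S ^ 2 = alive S := by
      unfold alive
      split_ifs <;> norm_num
    have e6 : op ι (mom2 (op ι) M) S ≤ (𝔼 c, g (S ∩ ι c) ^ 2) + a * M * op ι A S := by
      rw [op_apply, op_apply, mul_expect, ← expect_add_distrib]
      refine expect_le_expect fun c _ => ?_
      have := ih hM' (S ∩ ι c)
      linarith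
    have e7 : 𝔼 c, (g S - g (S ∩ ι c)) ^ 2
        = g S ^ 2 - 2 * g S * op ι g S + 𝔼 c, g (S ∩ ι c) ^ 2 := by
      simp_rw [sub_sq]
      rw [expect_add_distrib, expect_sub_distrib, Fintype.expect_const, ← mul_expect, op_apply]
    have e8 := H M hM' S
    rw [← hg, ← hA, e7] at e8
    have e9 : 0 ≤ h S := hh S
    rw [mom2_succ, e1, ← hg]
    have e10 : a * M * op ι A S ≤ a * M * geo (op ι) (M + 1) h S := by
      apply mul_le_mul_of_nonneg_left _ (by positivity)
      linarith
    have e11 : a * A S ≤ a * geo (op ι) (M + 1) h S := mul_le_mul_of_nonneg_left e3 ha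
    push_cast
    nlinarith [sq_nonneg (g S - op ι g S)]

/-- A deterministic inequality for antitone sequences in the unit interval. -/
theorem window_det (q : ℕ → ℝ) (hq : Antitone q) (h0 : ∀ t, 0 ≤ q t) (h1 : ∀ t, q t ≤ 1)
    (m₁ m₂ : ℕ) (hm : m₁ ≤ m₂) :
    q m₂ * (1 - q m₁) * ((m₂ : ℝ) - m₁ + 1) ^ 2
      ≤ ∑ t ∈ range (m₂ + 1), (2 * t + 1) * q t - (∑ t ∈ range (m₂ + 1), q t) ^ 2 := by
  have step : ∀ M : ℕ,
      ∑ t ∈ range (M + 1), (2 * t + 1) * q t - (∑ t ∈ range (M + 1), q t) ^ 2
        = (∑ t ∈ range M, (2 * t + 1) * q t - (∑ t ∈ range M, q t) ^ 2)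
          + q M * ((1 - q M) + 2 * ∑ t ∈ range M, (1 - q t)) := by
    intro M
    rw [sum_range_succ, sum_range_succ, sum_sub_distrib]
    simp only [sum_const, card_range, nsmul_eq_mul, mul_one]
    ring
  have nn : ∀ M : ℕ, 0 ≤ ∑ t ∈ range M, (2 * t + 1) * q t - (∑ t ∈ range M, q t) ^ 2 := by
    intro M
    induction M with
    | zero => simp
    | succ M ih =>
      rw [step]
      have : 0 ≤ ∑ t ∈ range M, (1 - q t) := sum_nonneg fun t _ => sub_nonneg.2 (h1 t)
      have := h0 M
      have := h1 M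
      have : 0 ≤ q M * ((1 - q M) + 2 * ∑ t ∈ range M, (1 - q t)) := by
        apply mul_nonneg <;> linarith
      linarith
  have aux : ∀ d : ℕ, d * (1 - q m₁) ≤ ∑ t ∈ range (m₁ + d), (1 - q t) := by
    intro d
    induction d with
    | zero =>
      rw [Nat.cast_zero, zero_mul]
      exact sum_nonneg fun t _ => sub_nonneg.2 (h1 t)
    | succ d ih =>
      rw [← add_assoc, sum_range_succ]
      have := hq (Nat.le_add_right m₁ d)
      push_cast
      linarith
  have main : ∀ d : ℕ, m₁ + d ≤ m₂ + 1 → q m₂ * (1 - q m₁) * (d : ℝ) ^ 2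
      ≤ ∑ t ∈ range (m₁ + d), (2 * t + 1) * q t - (∑ t ∈ range (m₁ + d), q t) ^ 2 := by
    intro d
    induction d with
    | zero => intro _; simpa using nn m₁
    | succ d ih =>
      intro hd
      rw [← add_assoc, step]
      have i1 := ih (by omega)
      have i2 := aux d
      have i3 : q m₂ ≤ q (m₁ + d) := hq (by omega)
      have i4 : q (m₁ + d) ≤ q m₁ := hq (Nat.le_add_right m₁ d)
      have i5 := h0 m₂
      have i6 := h1 m₁
      have i7 : q m₂ * ((1 - q m₁) + 2 * (d * (1 - q m₁)))
          ≤ q (m₁ + d) * ((1 - q (m₁ + d)) + 2 * ∑ t ∈ range (m₁ + d), (1 - q t)) := by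
        apply mul_le_mul i3 (by linarith) _ (h0 _)
        have : 0 ≤ 1 - q m₁ := by linarith
        positivity
      push_cast
      nlinarith
  have := main (m₂ + 1 - m₁) (by omega)
  rw [show m₁ + (m₂ + 1 - m₁) = m₂ + 1 by omega, Nat.cast_sub (by omega)] at this
  push_cast at this
  convert this using 3
  ring

end Vale.Agent.P170
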