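import Vale.Agent.P170.Variance

/-!
The scaling window bound for formulas whose literals are sampled with replacement.
-/

namespace Vale.Agent.P170

open Finset
open scoped BigOperators

variable {Ω : Type*}

theorem sq_loss_le {Λ : Type*} [Fintype Λ] [Nonempty Λ] (lit : Λ → Set Ω) (j M : ℕ) (S : Set Ω) :
    𝔼 C, (geo (op (cl lit (j + 1))) M alive S
        - geo (op (cl lit (j + 1))) M alive (S ∩ cl lit (j + 1) C)) ^ 2
      ≤ geo (op (cl lit (j + 1))) M (fun S => alive S * bb lit S ^ j) S
        * geo (op (cl lit (j + 1))) M (fun S => alive S * bb lit S) S := by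
  set g := geo (op (cl lit (j + 1))) M alive with hg
  have hmono : Monotone g := geo_monotone _ M alive_monotone
  have e1 : geo (op (cl lit (j + 1))) M (fun S => alive S * bb lit S ^ j) S
      = 𝔼 C, (g S - g (S ∩ cl lit j C)) := by
    rw [expect_sub_distrib, Fintype.expect_const, ← op_apply, hg, geo_sub_op]
    refine congrFun (congrArg _ (funext fun S => ?_)) _
    rw [Pi.sub_apply, op_cl_alive]
  have e2 : geo (op (cl lit (j + 1))) M (fun S => alive S * bb lit S) S
      = 𝔼 l, (g S - g (S ∩ lit l)) := by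
    rw [expect_sub_distrib, Fintype.expect_const, ← op_apply, hg, geo_sub_op]
    refine congrFun (congrArg _ (funext fun S => ?_)) _
    rw [Pi.sub_apply, op_lit_alive]
  rw [e1, e2, mul_comm, expect_mul_expect, ← expect_product', univ_product_univ]
  rw [← Fintype.expect_equiv (Fin.consEquiv fun _ => Λ)
    (fun p => (g S - g (S ∩ cl lit (j + 1) (Fin.consEquiv (fun _ => Λ) p))) ^ 2) _ fun _ => rfl]
  refine expect_le_expect ?_
  rintro ⟨l, C⟩ _
  have h0 : g (S ∩ cl lit (j + 1) (Fin.consEquiv (fun _ => Λ) (l, C))) ≤ g S :=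
    hmono Set.inter_subset_left
  have h1 : g (S ∩ lit l) ≤ g (S ∩ cl lit (j + 1) (Fin.consEquiv (fun _ => Λ) (l, C))) := by
    apply hmono
    apply Set.inter_subset_inter_right
    intro σ hσ
    exact Set.mem_iUnion.2 ⟨0, by simpa [Fin.consEquiv] using hσ⟩
  have h2 : g (S ∩ cl lit j C)
      ≤ g (S ∩ cl lit (j + 1) (Fin.consEquiv (fun _ => Λ) (l, C))) := by
    apply hmono
    apply Set.inter_subset_inter_right
    intro σ hσ
    obtain ⟨i, hi⟩ := Set.mem_iUnion.1 hσ
    exact Set.mem_iUnion.2 ⟨i.succ, by simpa [Fin.consEquiv] using hi⟩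
  rw [sq]
  apply mul_le_mul <;> linarith

theorem geo_pow_le {Λ : Type*} [Fintype Λ] [Nonempty Λ] (lit : Λ → Set Ω) (j M : ℕ) (η ε : ℝ)
    (hη : 0 < η) (hε : 0 ≤ ε) (hεη : ε ≤ η) (S : Set Ω) :
    geo (op (cl lit (j + 1))) M (fun S => alive S * (bb lit S + ε) ^ j) S
      ≤ 2 ^ j * ((M + 1) * η ^ j + 1 / η) := by
  have hp : (fun S => alive S * (bb lit S + ε) ^ j)
      ≤ (fun _ => (2 * η) ^ j) + (2 ^ j / η) • (alive - op (cl lit (j + 1)) alive) := by
    intro S
    simp only [Pi.add_apply, Pi.smul_apply, Pi.sub_apply, smul_eq_mul, op_cl_alive]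
    have b0 := bb_nonneg lit S
    have a0 := alive_nonneg S
    have a1 := alive_le_one S
    rcases le_total (bb lit S) η with h | h
    · have : (bb lit S + ε) ^ j ≤ (2 * η) ^ j := pow_le_pow_left₀ (by linarith) (by linarith) j
      have h2 : alive S * (bb lit S + ε) ^ j ≤ 1 * (2 * η) ^ j :=
        mul_le_mul a1 this (by positivity) (by norm_num)
      have h3 : 0 ≤ 2 ^ j / η * (alive S * bb lit S ^ (j + 1)) := by positivity
      linarith
    · have h1 : (bb lit S + ε) ^ j ≤ (2 * bb lit S) ^ j :=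
        pow_le_pow_left₀ (by linarith) (by linarith) j
      have h2 : (2 * bb lit S) ^ j ≤ 2 ^ j / η * bb lit S ^ (j + 1) := by
        rw [mul_pow, pow_succ, div_mul_eq_mul_div, le_div_iff₀ hη, mul_assoc]
        gcongr
      have h3 : alive S * (bb lit S + ε) ^ j ≤ alive S * (2 ^ j / η * bb lit S ^ (j + 1)) :=
        mul_le_mul_of_nonneg_left (h1.trans h2) a0
      have h4 : 0 ≤ (2 * η) ^ j := by positivity
      nlinarith
  have h1 := ((op_pos (cl lit (j + 1))).geo M) _ _ hp S
  rw [map_add, map_smul, Pi.add_apply, Pi.smul_apply, geo_const, smul_eq_mul] at h1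
  have h2 := geo_kill_le_one (cl lit (j + 1)) M S
  have h3 : 2 ^ j / η * geo (op (cl lit (j + 1))) M (alive - op (cl lit (j + 1)) alive) S
      ≤ 2 ^ j / η * 1 := mul_le_mul_of_nonneg_left h2 (by positivity)
  calc _ ≤ _ := h1
    _ ≤ (M + 1) * (2 * η) ^ j + 2 ^ j / η * 1 := by linarith
    _ = _ := by rw [mul_pow]; ring

theorem hybrid_le {C : Type*} [Fintype C] [Nonempty C] (ι κ : C → Set Ω) (b : ℝ) (M₀ : ℕ)
    (H : ∀ M ≤ M₀, ∀ S, geo (op ι) M (op ι alive - op κ alive) S ≤ b) :
    ∀ M ≤ M₀, ∀ S, geo (op ι) M alive S - geo (op κ) M alive S ≤ M * b := by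
  intro M
  induction M with
  | zero => intro _ S; simp [geo_zero]
  | succ M ih =>
    intro hM S
    have hM' : M ≤ M₀ := by omega
    have e1 : geo (op ι) (M + 1) alive S = alive S + op ι (geo (op ι) M alive) S := by
      rw [geo_succ]; rfl
    have e2 : geo (op κ) (M + 1) alive S = alive S + op κ (geo (op κ) M alive) S := by
      rw [geo_succ]; rfl
    have e3 := geo_sub_op ι ι M alive S
    have e4 := geo_sub_op ι κ M alive S
    have e5 := H M hM' S
    rw [map_sub, Pi.sub_apply] at e3 e4 e5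
    have e6 : op κ (geo (op ι) M alive) S - op κ (geo (op κ) M alive) S ≤ M * b := by
      rw [op_apply, op_apply, ← expect_sub_distrib]
      exact expect_le univ_nonempty fun c _ => ih hM' _
    push_cast
    linarith

variable {V : Type*}

/-- The literal `(x, b)` holds for the assignments giving `x` the value `b`. -/
def lit (l : V × Bool) : Set (V → Bool) := {σ | σ l.1 = l.2}

open Classical in
/-- Literals with those on the variable `x` deleted. -/
noncomputable def litDel (x : V) (l : V × Bool) : Set (V → Bool) := if l.1 = x then ∅ else lit l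

theorem bb_litDel_le [Fintype V] [Nonempty V] (x : V) (S : Set (V → Bool)) :
    bb (litDel x) S ≤ bb lit S + 1 / Fintype.card V := by
  classical
  have e : (1 / Fintype.card V : ℝ) = 𝔼 l : V × Bool, (if l.1 = x then 1 else 0 : ℝ) := by
    rw [← univ_product_univ, expect_product]
    have e' : ∀ v : V, 𝔼 _b : Bool, (if v = x then 1 else 0 : ℝ) = if v = x then 1 else 0 :=
      fun v => Fintype.expect_const _
    simp only [e']
    rw [Fintype.expect_ite_eq' x fun _ => (1 : ℝ)]
    simp [NNRat.smul_def]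
  rw [e, bb, bb, ← expect_add_distrib]
  refine expect_le_expect fun l _ => ?_
  unfold litDel
  split_ifs with h
  · have := alive_le_one (S ∩ lit l)
    simp only [Set.inter_empty, alive_empty]
    linarith
  · simp

/-- The key estimate: the expected cost of fixing a variable. -/
theorem key_estimate [Fintype V] [Nonempty V] (j M : ℕ) (η : ℝ)
    (hεη : 1 / (Fintype.card V : ℝ) ≤ η) :
    geo (op (cl (lit (V := V)) (j + 1))) M (fun S => alive S * bb lit S) Set.univ
      ≤ M * ((j + 1) / Fintype.card V * (2 ^ j * ((M + 1) * η ^ j + 1 / η))) := by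
  classical
  have hn : (0 : ℝ) < Fintype.card V := by exact_mod_cast Fintype.card_pos
  have hε : (0 : ℝ) < 1 / Fintype.card V := by positivity
  have hη : 0 < η := hε.trans_le hεη
  set g := geo (op (cl (lit (V := V)) (j + 1))) M alive with hg
  have e2 : geo (op (cl (lit (V := V)) (j + 1))) M (fun S => alive S * bb lit S) Set.univ
      = 𝔼 l, (g Set.univ - g (Set.univ ∩ lit l)) := by
    rw [expect_sub_distrib, Fintype.expect_const, ← op_apply, hg, geo_sub_op]
    refine congrFun (congrArg _ (funext fun S => ?_)) _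
    rw [Pi.sub_apply, op_lit_alive]
  rw [e2]
  refine expect_le univ_nonempty ?_
  rintro ⟨x, b⟩ _
  have h1 : geo (op (cl (litDel x) (j + 1))) M alive Set.univ ≤ g (Set.univ ∩ lit (x, b)) := by
    rw [hg, geo_apply, geo_apply]
    refine sum_le_sum fun t _ => ?_
    refine simulation (cl (litDel x) (j + 1)) (cl lit (j + 1))
      (fun S' S => ∀ σ ∈ S', Function.update σ x b ∈ S) ?_ alive alive ?_ t _ _ ?_
    · rintro S' S C h σ ⟨h1, h2⟩
      refine ⟨h σ h1, ?_⟩
      obtain ⟨i, hi⟩ := Set.mem_iUnion.1 h2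
      refine Set.mem_iUnion.2 ⟨i, ?_⟩
      unfold litDel at hi
      split_ifs at hi with hx
      · exact absurd hi (Set.notMem_empty _)
      · change Function.update σ x b (C i).1 = (C i).2
        rw [Function.update_of_ne hx]
        exact hi
    · intro S' S h
      rcases S'.eq_empty_or_nonempty with rfl | ⟨σ, hσ⟩
      · rw [alive_empty]; exact alive_nonneg _
      · rw [alive_of_nonempty ⟨σ, hσ⟩, alive_of_nonempty ⟨_, h σ hσ⟩]
    · intro σ _
      exact ⟨trivial, by simp [lit]⟩
  have h2 := hybrid_le (cl (lit (V := V)) (j + 1)) (cl (litDel x) (j + 1))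
    ((j + 1) / Fintype.card V * (2 ^ j * ((M + 1) * η ^ j + 1 / η))) M ?_ M le_rfl Set.univ
  · linarith
  intro M' hM' S
  have hp : op (cl (lit (V := V)) (j + 1)) alive - op (cl (litDel x) (j + 1)) alive
      ≤ ((j + 1) / Fintype.card V : ℝ) •
        fun S => alive S * (bb lit S + 1 / Fintype.card V) ^ j := by
    intro S
    have a1 := op_cl_alive (lit (V := V)) (j + 1) S
    have a2 := op_cl_alive (litDel x) (j + 1) S
    have a3 : bb (litDel x) S ^ (j + 1) ≤ (bb lit S + 1 / Fintype.card V) ^ (j + 1) :=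
      pow_le_pow_left₀ (bb_nonneg _ _) (bb_litDel_le x S) _
    have b0 := bb_nonneg (lit (V := V)) S
    have a4 := abs_pow_sub_pow_le (bb lit S + 1 / Fintype.card V) (bb lit S) (j + 1)
    rw [add_sub_cancel_left, abs_of_pos hε, abs_of_nonneg b0,
      abs_of_nonneg (a := bb lit S + 1 / Fintype.card V) (by linarith),
      max_eq_left (by linarith), Nat.add_sub_cancel] at a4
    have a5 := (le_abs_self _).trans a4
    have a6 : alive S * (bb (litDel x) S ^ (j + 1) - bb lit S ^ (j + 1))
        ≤ alive S * (1 / Fintype.card V * ((j + 1 : ℕ) : ℝ) * (bb lit S + 1 / Fintype.card V) ^ j) :=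
      mul_le_mul_of_nonneg_left (by linarith) (alive_nonneg S)
    simp only [Pi.sub_apply, Pi.smul_apply, smul_eq_mul]
    push_cast at a6
    calc _ = alive S * (bb (litDel x) S ^ (j + 1) - bb lit S ^ (j + 1)) := by linarith
      _ ≤ _ := a6
      _ = _ := by ring
  have h3 := ((op_pos (cl (lit (V := V)) (j + 1))).geo M') _ _ hp S
  rw [map_smul, Pi.smul_apply, smul_eq_mul] at h3
  refine h3.trans (mul_le_mul_of_nonneg_left ?_ (by positivity))
  refine (geo_pow_le lit j M' η _ hη hε.le hεη S).trans ?_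
  have : (M' : ℝ) ≤ M := by exact_mod_cast hM'
  gcongr

/-- Satisfiability probability of a formula with `m` clauses of `k` independent uniform literals. -/
noncomputable def pr (V : Type*) [Fintype V] (k m : ℕ) : ℝ :=
  (op (cl (lit (V := V)) k) ^ m) alive Set.univ

theorem pr_nonneg [Fintype V] (k m : ℕ) : 0 ≤ pr V k m := surv_nonneg _ _ _

theorem pr_le_one [Fintype V] [Nonempty V] (k m : ℕ) : pr V k m ≤ 1 := surv_le_one _ _ _

theorem pr_antitone [Fintype V] [Nonempty V] (k : ℕ) : Antitone (pr V k) := surv_antitone _ _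

theorem window_raw [Fintype V] [Nonempty V] (j m₁ m₂ : ℕ) (hm : m₁ ≤ m₂) (η : ℝ)
    (hεη : 1 / (Fintype.card V : ℝ) ≤ η) :
    pr V (j + 1) m₂ * (1 - pr V (j + 1) m₁) * ((m₂ : ℝ) - m₁ + 1) ^ 2
      ≤ (m₂ : ℝ) ^ 2 * ((j + 1) / Fintype.card V) * (2 ^ j * ((m₂ + 1) * η ^ j + 1 / η)) ^ 2 := by
  have hn : (0 : ℝ) < Fintype.card V := by exact_mod_cast Fintype.card_pos
  have hε : (0 : ℝ) < 1 / Fintype.card V := by positivity
  have hη : 0 < η := hε.trans_le hεη
  have h1 := window_det (pr V (j + 1)) (pr_antitone _) (pr_nonneg _) (pr_le_one _) m₁ m₂ hm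
  set a : ℝ := 2 ^ j * ((m₂ + 1) * η ^ j + 1 / η) with ha
  have ha0 : 0 ≤ a := by positivity
  have hh : 0 ≤ fun S : Set (V → Bool) => alive S * bb lit S :=
    fun S => mul_nonneg (alive_nonneg S) (bb_nonneg _ S)
  have h2 := variance_le (cl (lit (V := V)) (j + 1)) (fun S => alive S * bb lit S) hh a ha0 m₂
    ?_ m₂ le_rfl Set.univ
  · have h3 := key_estimate (V := V) j m₂ η hεη
    rw [geo_apply] at h2
    have h4 : a * m₂ * geo (op (cl (lit (V := V)) (j + 1))) m₂ (fun S => alive S * bb lit S) Set.univ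
        ≤ a * m₂ * (m₂ * ((j + 1) / Fintype.card V * a)) :=
      mul_le_mul_of_nonneg_left h3 (by positivity)
    calc _ ≤ _ := h1
      _ ≤ _ := h2
      _ ≤ _ := h4
      _ = _ := by ring
  intro M hM S
  refine (sq_loss_le lit j M S).trans (mul_le_mul_of_nonneg_right ?_ ?_)
  · have := geo_pow_le (lit (V := V)) j M η 0 hη le_rfl hη.le S
    simp only [add_zero] at this
    refine this.trans ?_
    have : (M : ℝ) ≤ m₂ := by exact_mod_cast hM
    rw [ha]
    gcongr
  · exact ((op_pos _).geo M).nonneg hh S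

theorem small_raw [Fintype V] [Nonempty V] (j m : ℕ) (η : ℝ)
    (hεη : 1 / (Fintype.card V : ℝ) ≤ η) :
    1 - pr V (j + 1) m
      ≤ m * ((j + 1) / Fintype.card V * (2 ^ j * ((m + 1) * η ^ j + 1 / η))) := by
  have h3 := key_estimate (V := V) j m η hεη
  have h : geo (op (cl (lit (V := V)) (j + 1))) m * (1 - op (cl (lit (V := V)) (j + 1)))
      = 1 - op (cl (lit (V := V)) (j + 1)) ^ (m + 1) := by
    rw [geo]; exact geom_sum_mul_neg _ _
  have h2 := congrFun (LinearMap.congr_fun h alive) Set.univ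
  simp only [Module.End.mul_apply, LinearMap.sub_apply, Module.End.one_apply, Pi.sub_apply] at h2
  rw [alive_of_nonempty Set.univ_nonempty] at h2
  have h4 : pr V (j + 1) (m + 1) ≤ pr V (j + 1) m := pr_antitone _ (Nat.le_succ m)
  have hp : alive - op (cl (lit (V := V)) (j + 1)) alive ≤ fun S => alive S * bb lit S := by
    intro S
    rw [Pi.sub_apply, op_cl_alive]
    refine mul_le_mul_of_nonneg_left ?_ (alive_nonneg S)
    exact pow_le_of_le_one (bb_nonneg _ _) (bb_le_one _ _) (by omega)
  have h5 := ((op_pos (cl (lit (V := V)) (j + 1))).geo m) _ _ hp Set.univ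
  rw [h2] at h5
  unfold pr at h4 ⊢
  linarith

end Vale.Agent.P170
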